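import Vale.Agent.P088.R2.H676.M.Key

/-!
# Smoothness and decay
-/

set_option linter.unusedSectionVars false

open MeasureTheory Set
open scoped ContDiff Topology

noncomputable section

namespace Vale.Agent.P088.R2.H676.M

variable {n : ℕ} {K : Set (V n)} {G : V n × V n → ℝ} {E : V n → ℝ}

/-- `(2E)^{-1/2}` -/
def ee (E : V n → ℝ) (p : V n) : ℝ := (√(2 * E p))⁻¹

theorem ee_cd (hE : ContDiff ℝ ∞ E) (pos : ∀ p, 0 < E p) : ContDiff ℝ ∞ (ee E) := by
  have h1 : ∀ p, 0 < 2 * E p := fun p => by have := pos p; positivity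
  exact ((contDiff_const.mul hE).sqrt (fun p => (h1 p).ne')).inv
    (fun p => (Real.sqrt_pos.2 (h1 p)).ne')

theorem ee_sq (pos : ∀ p, 0 < E p) (p : V n) : 2 * E p * ee E p ^ 2 = 1 := by
  have h1 : 0 < 2 * E p := by have := pos p; positivity
  rw [ee, inv_pow, Real.sq_sqrt h1.le]
  exact mul_inv_cancel₀ h1.ne'

/-- The integral as a function of `(p, q)`. -/
def Iu (E : V n → ℝ) (w : T n → ℝ) (G : V n × V n → ℝ) (x : V n × V n) : ℝ :=
  Ju w G (x.1, ee E x.1, x.2)

theorem Ju_mulp (a : V n → ℝ) (w : T n → ℝ) (G : V n × V n → ℝ) (x : V n × ℝ × V n) :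
    Ju w (fun y => a y.1 * G y) x = a x.1 * Ju w G x := by
  simp only [Ju, pu]
  rw [← integral_const_mul]
  refine integral_congr_ae (Filter.Eventually.of_forall fun t => ?_)
  simp only
  ring

/-- The curve of parameters. -/
def pr (E : V n → ℝ) (x : V n × V n) : V n × ℝ × V n := (x.1, ee E x.1, x.2)

theorem pr_fd (hE : ContDiff ℝ ∞ E) (pos : ∀ p, 0 < E p) (x : V n × V n) :
    HasFDerivAt (pr E) ((ContinuousLinearMap.fst ℝ (V n) (V n)).prod
      (((fderiv ℝ (ee E) x.1).comp (ContinuousLinearMap.fst ℝ (V n) (V n))).prod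
        (ContinuousLinearMap.snd ℝ (V n) (V n)))) x := by
  have h1 : HasFDerivAt (fun x : V n × V n => ee E x.1)
      ((fderiv ℝ (ee E) x.1).comp (ContinuousLinearMap.fst ℝ (V n) (V n))) x :=
    (((ee_cd hE pos).differentiable (by simp)) x.1).hasFDerivAt.comp x hasFDerivAt_fst
  exact hasFDerivAt_fst.prodMk (h1.prodMk hasFDerivAt_snd)

theorem Iu_df (hE : ContDiff ℝ ∞ E) (pos : ∀ p, 0 < E p) {w : T n → ℝ} (hw : Wt w)
    (hG : Tf K G) : Differentiable ℝ (Iu E w G) := fun x =>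
  (((Ju_fdd hw hG) (pr E x)).hasFDerivAt.comp x (pr_fd hE pos x)).differentiableAt

theorem Iu_fd (hE : ContDiff ℝ ∞ E) (pos : ∀ p, 0 < E p) {w : T n → ℝ} (hw : Wt w)
    (hG : Tf K G) (x v : V n × V n) :
    fderiv ℝ (Iu E w G) x v = Iu E w (fun y => fderiv ℝ G y (v.1, 0)) x +
      (Iu E (fun t => t.1 ^ 2 * w t) (fun y => fderiv ℝ G y (0, v.2)) x +
      ∑ i, Iu E (fun t => rho t.1 * t.2 i * w t)
        (fun y => fderiv ℝ (ee E) y.1 v.1 * dq i G y) x) := by
  have h : HasFDerivAt (Iu E w G) ((fderiv ℝ (Ju w G) (pr E x)).comp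
      ((ContinuousLinearMap.fst ℝ (V n) (V n)).prod
      (((fderiv ℝ (ee E) x.1).comp (ContinuousLinearMap.fst ℝ (V n) (V n))).prod
        (ContinuousLinearMap.snd ℝ (V n) (V n))))) x :=
    ((Ju_fdd hw hG) (pr E x)).hasFDerivAt.comp x (pr_fd hE pos x)
  rw [h.fderiv]
  change fderiv ℝ (Ju w G) (pr E x) (v.1, fderiv ℝ (ee E) x.1 v.1, v.2) = _
  rw [Ju_fd hw hG, Finset.mul_sum]
  congr 2
  refine Finset.sum_congr rfl fun i _ => ?_
  rw [Iu, Ju_mulp (fun p => fderiv ℝ (ee E) p v.1)]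
  rfl

/-- The Gaussian factor. -/
def ex (E : V n → ℝ) (x : V n × V n) : ℝ := Real.exp (-(E x.1 * sq x.2 / 2))

theorem sq_fd (z : V n) : HasFDerivAt (sq : V n → ℝ)
      (∑ j, (2 * z j) • ContinuousLinearMap.proj (R := ℝ) (φ := fun _ : Fin n => ℝ) j) z := by
  refine HasFDerivAt.fun_sum fun j _ => ?_
  have := (ContinuousLinearMap.proj (R := ℝ) (φ := fun _ : Fin n => ℝ) j).hasFDerivAt (x := z)
  have h2 := this.pow 2
  simpa using h2

theorem ex_fd (hE : ContDiff ℝ ∞ E) (x v : V n × V n) :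
    fderiv ℝ (ex E) x v = ex E x * (-(fderiv ℝ E x.1 v.1 / 2) * sq x.2 -
      E x.1 * ∑ i, x.2 i * v.2 i) := by
  have h1 : HasFDerivAt (fun x : V n × V n => E x.1)
      ((fderiv ℝ E x.1).comp (ContinuousLinearMap.fst ℝ (V n) (V n))) x :=
    ((hE.differentiable (by simp)) x.1).hasFDerivAt.comp x hasFDerivAt_fst
  have h2 : HasFDerivAt (fun x : V n × V n => sq x.2)
      ((∑ j, (2 * x.2 j) • ContinuousLinearMap.proj (R := ℝ) (φ := fun _ : Fin n => ℝ) j).comp
        (ContinuousLinearMap.snd ℝ (V n) (V n))) x :=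
    (sq_fd x.2).comp x hasFDerivAt_snd
  have h3 := (((h1.fun_mul h2).mul_const ((2 : ℝ)⁻¹)).fun_neg).exp
  have h4 : (fun x : V n × V n => Real.exp (-(E x.1 * sq x.2 * 2⁻¹))) = ex E := by
    funext x
    rw [ex, div_eq_mul_inv]
  change HasFDerivAt (fun x : V n × V n => Real.exp (-(E x.1 * sq x.2 * 2⁻¹))) _ x at h3
  rw [h4] at h3
  rw [h3.fderiv]
  simp only [smul_apply, neg_apply, add_apply, ContinuousLinearMap.comp_apply, sum_apply,
    smul_eq_mul, ContinuousLinearMap.proj_apply, ContinuousLinearMap.coe_fst',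
    ContinuousLinearMap.coe_snd', ex, div_eq_mul_inv]
  have : ∑ j, 2 * x.2 j * v.2 j = 2 * ∑ j, x.2 j * v.2 j := by
    rw [Finset.mul_sum]
    exact Finset.sum_congr rfl fun j _ => by ring
  rw [this]
  ring

theorem ex_cd (hE : ContDiff ℝ ∞ E) : ContDiff ℝ ∞ (ex E) :=
  ((((hE.comp contDiff_fst).mul (sq_cd.comp contDiff_snd)).div_const 2).neg).exp

/-- The class. -/
inductive Cl (E : V n → ℝ) (K : Set (V n)) : (V n × V n → ℝ) → Prop
  | base {w : T n → ℝ} {G : V n × V n → ℝ} : Wt w → Tf K G → Cl E K (fun x => ex E x * Iu E w G x)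
  | mulq {f : V n × V n → ℝ} (i : Fin n) : Cl E K f → Cl E K (fun x => x.2 i * f x)
  | add {f g : V n × V n → ℝ} : Cl E K f → Cl E K g → Cl E K (fun x => f x + g x)

theorem Cl.of_eq {f g : V n × V n → ℝ} (h : Cl E K f) (e : ∀ x, g x = f x) : Cl E K g := by
  rw [funext e]; exact h

theorem Tf.zero' : Tf K (fun _ : V n × V n => (0 : ℝ)) where
  cd := contDiff_const
  cs := HasCompactSupport.zero
  sp x hx := by
    have : tsupport (fun _ : V n × V n => (0 : ℝ)) = ∅ := tsupport_eq_empty_iff.2 rfl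
    rw [this] at hx
    exact absurd hx (notMem_empty x)

theorem Cl.zero : Cl E K (fun _ => 0) :=
  (Cl.base (w0_wt 0) Tf.zero').of_eq fun x => by simp [Iu, Ju]

theorem Cl.sum {ι : Type} (s : Finset ι) {f : ι → V n × V n → ℝ} (h : ∀ i ∈ s, Cl E K (f i)) :
    Cl E K (fun x => ∑ i ∈ s, f i x) := by
  classical
  induction s using Finset.induction_on with
  | empty => exact Cl.zero.of_eq fun x => by simp
  | insert a s ha ih =>
    refine ((h a (Finset.mem_insert_self a s)).add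
      (ih fun i hi => h i (Finset.mem_insert_of_mem hi))).of_eq fun x => ?_
    rw [Finset.sum_insert ha]

theorem Cl.mulp {f : V n × V n → ℝ} (h : Cl E K f) {a : V n → ℝ} (ha : ContDiff ℝ ∞ a) :
    Cl E K (fun x => a x.1 * f x) := by
  induction h with
  | base hw hG =>
    refine (Cl.base hw (hG.mulp ha)).of_eq fun x => ?_
    simp only [Iu]
    rw [Ju_mulp]
    ring
  | mulq i _ ih => exact (ih.mulq i).of_eq fun x => by ring
  | add _ _ ih1 ih2 => exact (ih1.add ih2).of_eq fun x => by ring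

theorem Cl.df (hE : ContDiff ℝ ∞ E) (pos : ∀ p, 0 < E p) {f : V n × V n → ℝ} (h : Cl E K f) :
    Differentiable ℝ f := by
  induction h with
  | base hw hG => exact ((ex_cd hE).differentiable (by simp)).fun_mul (Iu_df hE pos hw hG)
  | mulq i _ ih =>
    have : Differentiable ℝ (fun x : V n × V n => x.2 i) := by fun_prop
    exact this.fun_mul ih
  | add _ _ ih1 ih2 => exact ih1.fun_add ih2

theorem Cl.dv (hE : ContDiff ℝ ∞ E) (pos : ∀ p, 0 < E p) {f : V n × V n → ℝ} (h : Cl E K f)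
    (v : V n × V n) : Cl E K (fun x => fderiv ℝ f x v) := by
  induction h with
  | @base w G hw hG =>
    have c1 : Cl E K fun x => ex E x * Iu E w (fun y => fderiv ℝ G y (v.1, 0)) x :=
      Cl.base hw (hG.dv _)
    have c2 : Cl E K fun x => ex E x * Iu E (fun t => t.1 ^ 2 * w t)
        (fun y => fderiv ℝ G y (0, v.2)) x := Cl.base (hw.cu (some none)) (hG.dv _)
    have c3 : Cl E K fun x => ∑ i, ex E x * Iu E (fun t => rho t.1 * t.2 i * w t)
        (fun y => fderiv ℝ (ee E) y.1 v.1 * dq i G y) x :=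
      Cl.sum _ fun i _ => Cl.base (hw.cu (some (some i)))
        ((hG.dq i).mulp (cd_dv (ee_cd hE pos) v.1))
    have c0 : Cl E K fun x => ex E x * Iu E w G x := Cl.base hw hG
    have c4 : Cl E K fun x => ∑ i, x.2 i * (x.2 i * (-(fderiv ℝ E x.1 v.1 / 2) *
        (ex E x * Iu E w G x))) :=
      Cl.sum _ fun i _ => Cl.mulq i (Cl.mulq i (c0.mulp (((cd_dv hE v.1).div_const 2).neg)))
    have c5 : Cl E K fun x => ∑ i, x.2 i * ((-(E x.1 * v.2 i)) * (ex E x * Iu E w G x)) :=
      Cl.sum _ fun i _ => Cl.mulq i (c0.mulp ((hE.mul contDiff_const).neg))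
    refine (((c1.add c2).add c3).add (c4.add c5)).of_eq fun x => ?_
    have h1 := ((ex_cd hE).differentiable (by simp) x).hasFDerivAt.mul
      (Iu_df hE pos hw hG x).hasFDerivAt
    have h2 : fderiv ℝ (fun x => ex E x * Iu E w G x) x v =
        ex E x * fderiv ℝ (Iu E w G) x v + Iu E w G x * fderiv ℝ (ex E) x v := by
      have := h1.fderiv
      change fderiv ℝ (fun x => ex E x * Iu E w G x) x = _ at this
      rw [this]
      simp only [add_apply, smul_apply, smul_eq_mul]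
    rw [h2, Iu_fd hE pos hw hG, ex_fd hE, ← Finset.mul_sum]
    have e4 : ∑ i, x.2 i * (x.2 i * (-(fderiv ℝ E x.1 v.1 / 2) * (ex E x * Iu E w G x))) =
        sq x.2 * (-(fderiv ℝ E x.1 v.1 / 2) * (ex E x * Iu E w G x)) := by
      rw [sq, Finset.sum_mul]
      exact Finset.sum_congr rfl fun i _ => by ring
    have e5 : ∑ i, x.2 i * ((-(E x.1 * v.2 i)) * (ex E x * Iu E w G x)) =
        - (E x.1 * ∑ i, x.2 i * v.2 i) * (ex E x * Iu E w G x) := by
      rw [Finset.mul_sum, ← Finset.sum_neg_distrib, Finset.sum_mul]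
      exact Finset.sum_congr rfl fun i _ => by ring
    rw [e4, e5]
    ring
  | @mulq f i hf ih =>
    have h0 : Cl E K fun x => v.2 i * f x := hf.mulp (contDiff_const (c := v.2 i))
    refine (h0.add (ih.mulq i)).of_eq fun x => ?_
    have h1 : HasFDerivAt (fun x : V n × V n => x.2 i)
        ((ContinuousLinearMap.proj (R := ℝ) (φ := fun _ : Fin n => ℝ) i).comp
          (ContinuousLinearMap.snd ℝ (V n) (V n))) x :=
      ((ContinuousLinearMap.proj (R := ℝ) (φ := fun _ : Fin n => ℝ) i).comp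
          (ContinuousLinearMap.snd ℝ (V n) (V n))).hasFDerivAt
    have h2 := h1.mul ((hf.df hE pos) x).hasFDerivAt
    have h3 := h2.fderiv
    change fderiv ℝ (fun x : V n × V n => x.2 i * f x) x = _ at h3
    rw [h3]
    simp only [add_apply, smul_apply, smul_eq_mul, ContinuousLinearMap.comp_apply,
      ContinuousLinearMap.proj_apply, ContinuousLinearMap.coe_snd']
    ring
  | @add f g hf hg ih1 ih2 =>
    refine (ih1.add ih2).of_eq fun x => ?_
    have h2 := ((hf.df hE pos) x).hasFDerivAt.add ((hg.df hE pos) x).hasFDerivAt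
    have h3 := h2.fderiv
    change fderiv ℝ (fun x : V n × V n => f x + g x) x = _ at h3
    rw [h3]
    rfl

theorem Cl.zero_of {f : V n × V n → ℝ} (h : Cl E K f) {x : V n × V n} (hx : x.1 ∉ K) :
    f x = 0 := by
  induction h with
  | base hw hG =>
    simp only [Iu]
    rw [Ju_zero hG (x := (x.1, ee E x.1, x.2)) hx, mul_zero]
  | mulq i _ ih =>
    simp only
    rw [ih, mul_zero]
  | add _ _ ih1 ih2 =>
    simp only
    rw [ih1, ih2, add_zero]

theorem Cl.bd (hE : ContDiff ℝ ∞ E) (pos : ∀ p, 0 < E p) (hK : IsCompact K)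
    {f : V n × V n → ℝ} (h : Cl E K f) (k : ℕ) : ∃ C, ∀ x, (1 + ‖x.2‖) ^ k * |f x| ≤ C := by
  induction h generalizing k with
  | @base w G hw hG =>
    obtain ⟨C0, h0⟩ := Ju_bd hw hG
    obtain ⟨ε, hε, h1⟩ : ∃ ε, 0 < ε ∧ ∀ p ∈ K, ε ≤ E p := by
      rcases K.eq_empty_or_nonempty with rfl | hne
      · exact ⟨1, one_pos, fun p hp => absurd hp (notMem_empty p)⟩
      · obtain ⟨p0, _, h2⟩ := hK.exists_isMinOn hne hE.continuous.continuousOn
        exact ⟨E p0, pos p0, fun p hp => h2 hp⟩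
    refine ⟨(k.factorial * Real.exp (1 + 1 / (2 * ε))) * |C0|, fun x => ?_⟩
    by_cases hx : x.1 ∈ K
    · simp only
      rw [abs_mul, ← mul_assoc]
      refine mul_le_mul ?_ ((h0 _).trans (le_abs_self _)) (abs_nonneg _) (by positivity)
      rw [ex, abs_of_pos (Real.exp_pos _)]
      refine le_trans ?_ (pow_exp k hε (norm_nonneg x.2))
      refine mul_le_mul_of_nonneg_left (Real.exp_le_exp.2 ?_) (by positivity)
      have h3 := norm_sq_le x.2
      have h4 := h1 _ hx
      have h5 : ε * ‖x.2‖ ^ 2 ≤ E x.1 * sq x.2 :=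
        mul_le_mul h4 h3 (by positivity) (pos _).le
      linarith
    · have h2 := (Cl.base (E := E) hw hG).zero_of hx
      simp only at h2 ⊢
      rw [h2, abs_zero, mul_zero]
      positivity
  | @mulq f i hf ih =>
    obtain ⟨C, hC⟩ := ih (k + 1)
    refine ⟨C, fun x => le_trans ?_ (hC x)⟩
    rw [abs_mul, pow_succ, mul_assoc]
    refine mul_le_mul_of_nonneg_left ?_ (by positivity)
    refine mul_le_mul_of_nonneg_right ?_ (abs_nonneg _)
    have := norm_le_pi_norm x.2 i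
    rw [Real.norm_eq_abs] at this
    linarith
  | @add f g hf hg ih1 ih2 =>
    obtain ⟨C, hC⟩ := ih1 k
    obtain ⟨D, hD⟩ := ih2 k
    refine ⟨C + D, fun x => ?_⟩
    have := abs_add_le (f x) (g x)
    calc (1 + ‖x.2‖) ^ k * |f x + g x| ≤ (1 + ‖x.2‖) ^ k * (|f x| + |g x|) :=
          mul_le_mul_of_nonneg_left this (by positivity)
      _ ≤ C + D := by rw [mul_add]; exact add_le_add (hC x) (hD x)

theorem Cl.cdn (hE : ContDiff ℝ ∞ E) (pos : ∀ p, 0 < E p) (k : ℕ) :
    ∀ {f : V n × V n → ℝ}, Cl E K f → ContDiff ℝ k f := by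
  induction k with
  | zero => exact fun h => contDiff_zero.2 (h.df hE pos).continuous
  | succ k ih =>
    intro f h
    exact_mod_cast contDiff_succ_iff_fderiv_apply.2
      ⟨h.df hE pos, by simp, fun v => ih (h.dv hE pos v)⟩

theorem Cl.cd (hE : ContDiff ℝ ∞ E) (pos : ∀ p, 0 < E p) {f : V n × V n → ℝ} (h : Cl E K f) :
    ContDiff ℝ ∞ f := contDiff_infty.2 fun k => h.cdn hE pos k

end Vale.Agent.P088.R2.H676.M
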