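import Vale.Agent.P088.R2.H676.M.Wt

/-!
# The differential equation of the Mehler integral
-/

set_option linter.unusedSectionVars false

open MeasureTheory Set
open scoped ContDiff Topology

noncomputable section

namespace Vale.Agent.P088.R2.H676.M

variable {n : ℕ} {K : Set (V n)} {G : V n × V n → ℝ}

/-- `∂_{q_i} G` -/
def dq (i : Fin n) (G : V n × V n → ℝ) (x : V n × V n) : ℝ := fderiv ℝ G x (eq2 i)

theorem Tf.dq (h : Tf K G) (i : Fin n) : Tf K (dq i G) := h.dv _

theorem gam_fd (z : V n) (i : Fin n) : fderiv ℝ (gam : V n → ℝ) z (Pi.single i 1) = - (z i * gam z) := by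
  have h0 : ∀ j : Fin n, HasFDerivAt (fun z : V n => z j ^ 2)
      ((2 * z j) • ContinuousLinearMap.proj (R := ℝ) (φ := fun _ : Fin n => ℝ) j) z := by
    intro j
    have := (ContinuousLinearMap.proj (R := ℝ) (φ := fun _ : Fin n => ℝ) j).hasFDerivAt (x := z)
    have h2 := this.pow 2
    simpa using h2
  have h1 : HasFDerivAt (sq : V n → ℝ)
      (∑ j, (2 * z j) • ContinuousLinearMap.proj (R := ℝ) (φ := fun _ : Fin n => ℝ) j) z :=
    HasFDerivAt.fun_sum fun j _ => h0 j
  have h2 : HasFDerivAt (gam : V n → ℝ) (Real.exp (-(sq z / 2)) •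
      (-((∑ j, (2 * z j) • ContinuousLinearMap.proj (R := ℝ) (φ := fun _ : Fin n => ℝ) j).smulRight
        ((2 : ℝ)⁻¹)))) z := by
    have h3 : HasFDerivAt (fun z : V n => -(sq z / 2))
      (-((∑ j, (2 * z j) • ContinuousLinearMap.proj (R := ℝ) (φ := fun _ : Fin n => ℝ) j).smulRight
        ((2 : ℝ)⁻¹))) z := by
      have := (h1.mul_const ((2 : ℝ)⁻¹)).fun_neg
      simp only [div_eq_mul_inv]
      exact this.congr_fderiv (by ext v; simp [mul_comm])
    exact h3.exp
  rw [h2.fderiv]
  simp only [smul_apply, neg_apply, ContinuousLinearMap.smulRight_apply, sum_apply, smul_eq_mul,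
    ContinuousLinearMap.proj_apply, Pi.single_apply, mul_ite, mul_one, mul_zero,
    Finset.sum_ite_eq', Finset.mem_univ, if_true, gam]
  ring

theorem rd_z {w : V n → ℝ} (hw : Rd w) (i : Fin n) : Rd (fun z => z i * w z) :=
  hw.mul (cz_ct (some i)) (cz_bd (some i))

theorem jz_int {w : V n → ℝ} (hw : Rd w) (hG : Tf K G) (x : V n × V n × ℝ) :
    Integrable (fun z => w z * G (x.1, x.2.1 + x.2.2 • z)) := by
  obtain ⟨C0, h0⟩ := hG.b0
  have := int_mul (ν := volume) (c := cz) (B := Bz) cz_ct hG.cd.continuous h0 hw.int x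
  simpa only [arz] using this

/-- Gaussian integration by parts. -/
theorem ibp (hG : Tf K G) (x : V n × V n × ℝ) (i : Fin n) :
    jz (fun z => z i * gam z) G x = x.2.2 * jz gam (dq i G) x := by
  have hf : ∀ z, HasFDerivAt (fun z : V n => G (x.1, x.2.1 + x.2.2 • z))
      ((fderiv ℝ G (x.1, x.2.1 + x.2.2 • z)).comp ((0 : V n →L[ℝ] V n).prod
        (x.2.2 • ContinuousLinearMap.id ℝ (V n)))) z := by
    intro z
    have h1 := (hG.cd.differentiable (by simp) (x.1, x.2.1 + x.2.2 • z)).hasFDerivAt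
    have h2 : HasFDerivAt (fun z : V n => (x.1, x.2.1 + x.2.2 • z)) ((0 : V n →L[ℝ] V n).prod
        (x.2.2 • ContinuousLinearMap.id ℝ (V n))) z :=
      (hasFDerivAt_const x.1 z).prodMk (((hasFDerivAt_id z).const_smul x.2.2).const_add x.2.1)
    exact h1.comp z h2
  have hfd : ∀ z, fderiv ℝ (fun z : V n => G (x.1, x.2.1 + x.2.2 • z)) z (Pi.single i 1) =
      x.2.2 * dq i G (x.1, x.2.1 + x.2.2 • z) := by
    intro z
    rw [(hf z).fderiv, dq, eq2, ← smul_eq_mul, ← map_smul]
    simp
  have key := integral_mul_fderiv_eq_neg_fderiv_mul_of_integrable (μ := volume)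
    (f := fun z : V n => G (x.1, x.2.1 + x.2.2 • z)) (g := gam) (v := Pi.single i 1) ?_ ?_ ?_
    (fun z _ => (hf z).differentiableAt) (fun z _ => gam_cd.differentiable (by simp) z)
  · simp only [hfd, gam_fd] at key
    simp only [jz]
    rw [← integral_const_mul]
    calc ∫ z, z i * gam z * G (x.1, x.2.1 + x.2.2 • z)
        = - ∫ z, G (x.1, x.2.1 + x.2.2 • z) * -(z i * gam z) := by
          rw [← integral_neg]
          refine integral_congr_ae (Filter.Eventually.of_forall fun z => ?_)
          simp only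
          ring
      _ = ∫ z, x.2.2 * dq i G (x.1, x.2.1 + x.2.2 • z) * gam z := by
          rw [key, neg_neg]
      _ = _ := by
          refine integral_congr_ae (Filter.Eventually.of_forall fun z => ?_)
          simp only
          ring
  · simp only [hfd]
    refine ((jz_int gam_rd (hG.dq i) x).const_mul x.2.2).congr
      (Filter.Eventually.of_forall fun z => ?_)
    simp only
    ring
  · simp only [gam_fd]
    refine (jz_int (rd_z gam_rd i) hG x).neg.congr (Filter.Eventually.of_forall fun z => ?_)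
    simp only [Pi.neg_apply]
    ring
  · refine (jz_int gam_rd hG x).congr (Filter.Eventually.of_forall fun z => ?_)
    simp only
    ring

theorem jz_dir (hG : Tf K G) (x : V n × V n × ℝ) (q : V n) :
    jz gam (fun y => fderiv ℝ G y (0, q)) x = ∑ i, q i * jz gam (dq i G) x := by
  have h : ∀ y, fderiv ℝ G y (0, q) = ∑ i, q i * dq i G y := by
    intro y
    have : ((0 : V n), q) = ∑ i, q i • eq2 i := by
      have := sum_pair (n := n) 1 q
      simp only [one_smul] at this
      rw [← this]
      refine Finset.sum_congr rfl fun i _ => ?_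
      simp [eq2]
    rw [this, map_sum]
    exact Finset.sum_congr rfl fun i _ => by rw [map_smul, smul_eq_mul, dq]
  simp only [jz, h, Finset.mul_sum]
  rw [integral_finsetSum]
  · refine Finset.sum_congr rfl fun i _ => ?_
    rw [← integral_const_mul]
    refine integral_congr_ae (Filter.Eventually.of_forall fun z => ?_)
    simp only
    ring
  · intro i _
    refine ((jz_int gam_rd (hG.dq i) x).const_mul (q i)).congr
      (Filter.Eventually.of_forall fun z => ?_)
    simp only
    ring

/-- the curve -/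
def cv (x : V n × V n) (e u : ℝ) : V n × V n × ℝ := (x.1, u ^ 2 • x.2, e * rho u)

theorem cv_ct (x : V n × V n) (e : ℝ) : Continuous (cv x e) :=
  continuous_const.prodMk (((continuous_id.pow 2).smul continuous_const).prodMk
    (continuous_const.mul rho_ct))

theorem fub (k : ℕ) (hG : Tf K G) (x : V n × V n) (e : ℝ) {w : T n → ℝ}
    (hw : ∀ t, w t = t.1 ^ k * gam t.2) :
    Ju w G (x.1, e, x.2) = ∫ u in (0 : ℝ)..1, u ^ k * jz gam G (cv x e u) := by
  have hw' : w = w0 k := funext hw
  have hi : Integrable (fun t => w t * G (pu (x.1, e, x.2) t)) (nu n) := by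
    obtain ⟨C0, h0⟩ := hG.b0
    have := int_mul (ν := nu n) (c := cu) (B := Bu) cu_ct hG.cd.continuous h0
      (w0_wt k).int (x.1, e, x.2)
    rw [hw']
    simpa only [aru] using this
  rw [Ju, nu, integral_prod _ hi, intervalIntegral.integral_of_le zero_le_one,
    integral_Ioc_eq_integral_Ioo]
  refine integral_congr_ae (Filter.Eventually.of_forall fun u => ?_)
  simp only [jz, cv, pu, hw]
  rw [← integral_const_mul]
  refine integral_congr_ae (Filter.Eventually.of_forall fun z => ?_)
  simp only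
  ring

theorem rho_hd {u : ℝ} (h : u ∈ Ioo (0 : ℝ) 1) : HasDerivAt rho (-(2 * u ^ 3) / rho u) u := by
  have h4 : u ^ 4 < 1 := pow_lt_one₀ h.1.le h.2 (by norm_num)
  have h1 : HasDerivAt (fun u : ℝ => 1 - u ^ 4) (-(4 * u ^ 3)) u := by
    have := (hasDerivAt_pow 4 u).const_sub 1
    simpa using this
  have h2 := h1.sqrt (by linarith)
  refine h2.congr_deriv ?_
  rw [show √(1 - u ^ 4) = rho u from rfl]
  have h5 : 0 < rho u := Real.sqrt_pos.2 (by linarith)
  field_simp
  ring

theorem rho_pos {u : ℝ} (h : u ∈ Ioo (0 : ℝ) 1) : 0 < rho u := by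
  have h4 : u ^ 4 < 1 := pow_lt_one₀ h.1.le h.2 (by norm_num)
  exact Real.sqrt_pos.2 (by linarith)

theorem jz_hd (hG : Tf K G) (x : V n × V n) (e : ℝ) {u : ℝ} (h : u ∈ Ioo (0 : ℝ) 1) :
    HasDerivAt (fun u => jz gam G (cv x e u))
      (2 * u * ∑ i, x.2 i * jz gam (dq i G) (cv x e u) -
        2 * u ^ 3 * e ^ 2 * ∑ i, jz gam (dq i (dq i G)) (cv x e u)) u := by
  have h1 : HasDerivAt (cv x e) (0, (2 * u) • x.2, e * (-(2 * u ^ 3) / rho u)) u := by
    refine (hasDerivAt_const u x.1).prodMk (HasDerivAt.prodMk ?_ ((rho_hd h).const_mul e))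
    have := (hasDerivAt_pow 2 u).smul_const x.2
    simpa using this
  have h2 := ((jz_df gam_rd hG) (cv x e u)).hasFDerivAt.comp_hasDerivAt u h1
  refine h2.congr_deriv ?_
  rw [jz_fd gam_rd hG, jz_dir hG]
  have h3 : ∀ i : Fin n, jz (fun z => z i * gam z) (fun y => fderiv ℝ G y (eq2 i)) (cv x e u) =
      (e * rho u) * jz gam (dq i (dq i G)) (cv x e u) := fun i => ibp (hG.dq i) (cv x e u) i
  simp only [h3, ← Finset.mul_sum, Pi.smul_apply, smul_eq_mul, mul_assoc]
  have h5 := (rho_pos h).ne'
  field_simp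
  ring

/-- total mass -/
def ZZ (n : ℕ) : ℝ := ∫ z : V n, gam z

theorem ZZ_pos : 0 < ZZ n := by
  unfold ZZ
  refine (integral_pos_iff_support_of_nonneg (f := (gam : V n → ℝ))
    (fun z => (Real.exp_pos _).le) gam_rd.int).2 ?_
  have : Function.support (gam : V n → ℝ) = univ := by
    ext z
    simp [gam, Real.exp_ne_zero]
  rw [this]
  exact isOpen_univ.measure_pos volume univ_nonempty

theorem key (m : ℕ) (hG : Tf K G) (x : V n × V n) {E e : ℝ} (he : 2 * E * e ^ 2 = 1) :
    (m + 1) * E * Ju (w0 m) G (x.1, e, x.2) +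
      2 * E * ∑ i, x.2 i * Ju (fun t => t.1 ^ 2 * w0 m t) (dq i G) (x.1, e, x.2) -
      ∑ i, Ju (fun t => t.1 ^ 2 * (t.1 ^ 2 * w0 m t)) (dq i (dq i G)) (x.1, e, x.2) =
      E * ZZ n * G x := by
  have c0 : ∀ {G : V n × V n → ℝ}, Tf K G → Continuous fun u => jz gam G (cv x e u) :=
    fun {G} h => (jz_df gam_rd h).continuous.comp (cv_ct x e)
  have hI : ∀ (k : ℕ) {G : V n × V n → ℝ}, Tf K G →
      IntervalIntegrable (fun u => u ^ k * jz gam G (cv x e u)) volume 0 1 :=
    fun k {G} h => ((continuous_id.pow k).mul (c0 h)).intervalIntegrable _ _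
  rw [fub m hG x e (w := w0 m) (fun t => rfl)]
  have h2 : ∀ i, Ju (fun t => t.1 ^ 2 * w0 m t) (dq i G) (x.1, e, x.2) =
      ∫ u in (0 : ℝ)..1, u ^ (m + 2) * jz gam (dq i G) (cv x e u) :=
    fun i => fub (m + 2) (hG.dq i) x e (fun t => by simp only [w0]; ring)
  have h4 : ∀ i, Ju (fun t => t.1 ^ 2 * (t.1 ^ 2 * w0 m t)) (dq i (dq i G)) (x.1, e, x.2) =
      ∫ u in (0 : ℝ)..1, u ^ (m + 4) * jz gam (dq i (dq i G)) (cv x e u) :=
    fun i => fub (m + 4) ((hG.dq i).dq i) x e (fun t => by simp only [w0]; ring)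
  simp only [h2, h4]
  have ftc := intervalIntegral.integral_eq_sub_of_hasDerivAt_of_le (a := 0) (b := 1)
    (f := fun u => u ^ (m + 1) * jz gam G (cv x e u))
    (f' := fun u => (m + 1) * (u ^ m * jz gam G (cv x e u)) +
      (2 * ∑ i, x.2 i * (u ^ (m + 2) * jz gam (dq i G) (cv x e u)) -
        2 * e ^ 2 * ∑ i, u ^ (m + 4) * jz gam (dq i (dq i G)) (cv x e u)))
    zero_le_one ((continuous_id.pow (m + 1)).mul (c0 hG)).continuousOn ?_ ?_
  · have i1 := (hI m hG).const_mul ((m : ℝ) + 1)
    have i2 : ∀ i, IntervalIntegrable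
        (fun u => x.2 i * (u ^ (m + 2) * jz gam (dq i G) (cv x e u))) volume 0 1 :=
      fun i => (hI (m + 2) (hG.dq i)).const_mul _
    have i4 : ∀ i, IntervalIntegrable
        (fun u => u ^ (m + 4) * jz gam (dq i (dq i G)) (cv x e u)) volume 0 1 :=
      fun i => hI (m + 4) ((hG.dq i).dq i)
    have j2 : IntervalIntegrable
        (fun u => ∑ i, x.2 i * (u ^ (m + 2) * jz gam (dq i G) (cv x e u))) volume 0 1 :=
      (continuous_finsetSum _ fun i _ => continuous_const.mul
        ((continuous_id.pow (m + 2)).mul (c0 (hG.dq i)))).intervalIntegrable _ _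
    have j4 : IntervalIntegrable
        (fun u => ∑ i, u ^ (m + 4) * jz gam (dq i (dq i G)) (cv x e u)) volume 0 1 :=
      (continuous_finsetSum _ fun i _ => 
        ((continuous_id.pow (m + 4)).mul (c0 ((hG.dq i).dq i)))).intervalIntegrable _ _
    rw [intervalIntegral.integral_add i1 ((j2.const_mul 2).sub (j4.const_mul (2 * e ^ 2))),
      intervalIntegral.integral_sub (j2.const_mul 2) (j4.const_mul (2 * e ^ 2)),
      intervalIntegral.integral_const_mul, intervalIntegral.integral_const_mul,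
      intervalIntegral.integral_const_mul, intervalIntegral.integral_finsetSum fun i _ => i2 i,
      intervalIntegral.integral_finsetSum fun i _ => i4 i] at ftc
    simp only [intervalIntegral.integral_const_mul] at ftc
    have hr : rho 1 = 0 := by simp [rho]
    have hend : jz gam G (cv x e 1) = ZZ n * G x := by
      simp only [jz, cv, hr, ZZ, mul_zero, zero_smul, add_zero, one_pow, one_smul]
      rw [integral_mul_const]
    rw [hend] at ftc
    simp only [one_pow, one_mul, zero_pow (Nat.succ_ne_zero m), zero_mul, sub_zero] at ftc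
    have h6 : 2 * e ^ 2 * E = 1 := by linarith
    rw [mul_assoc E, ← ftc]
    have h8 : ∀ s : ℝ, E * (2 * e ^ 2 * s) = s := fun s => by
      rw [← mul_assoc, mul_comm E, h6, one_mul]
    rw [mul_add, mul_sub, h8]
    ring
  · intro u hu
    have h1 := (hasDerivAt_pow (m + 1) u).fun_mul (jz_hd hG x e hu)
    refine h1.congr_deriv ?_
    have s1 : ∑ i, x.2 i * (u ^ (m + 2) * jz gam (dq i G) (cv x e u)) =
        u ^ (m + 2) * ∑ i, x.2 i * jz gam (dq i G) (cv x e u) := by
      rw [Finset.mul_sum]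
      exact Finset.sum_congr rfl fun i _ => by ring
    have s2 : ∑ i, u ^ (m + 4) * jz gam (dq i (dq i G)) (cv x e u) =
        u ^ (m + 4) * ∑ i, jz gam (dq i (dq i G)) (cv x e u) := by
      rw [Finset.mul_sum]
    rw [s1, s2, Nat.add_sub_cancel]
    push_cast
    ring
  · exact (((continuous_const.mul ((continuous_id.pow m).mul (c0 hG)))).add
      ((continuous_const.mul (continuous_finsetSum _ fun i _ => continuous_const.mul
        ((continuous_id.pow (m + 2)).mul (c0 (hG.dq i))))).sub
        (continuous_const.mul (continuous_finsetSum _ fun i _ => 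
        ((continuous_id.pow (m + 4)).mul (c0 ((hG.dq i).dq i))))))).intervalIntegrable _ _

end Vale.Agent.P088.R2.H676.M
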