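import Vale.Agent.P088.R2.H676.M.Cls

/-!
# The inverse of `B₂ = -Δ_q + E² |q|² - 2 E`
-/

set_option linter.unusedSectionVars false

open MeasureTheory Set
open scoped ContDiff Topology

noncomputable section

namespace Vale.Agent.P088.R2.H676.M

variable {n : ℕ} {K : Set (V n)} {G : V n × V n → ℝ} {E : V n → ℝ}

/-! ## The equation -/

theorem dq_I (hE : ContDiff ℝ ∞ E) (pos : ∀ p, 0 < E p) {w : T n → ℝ} (hw : Wt w)
    (hG : Tf K G) (i : Fin n) (x : V n × V n) :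
    dq i (Iu E w G) x = Iu E (fun t => t.1 ^ 2 * w t) (dq i G) x := by
  rw [dq, Iu_fd hE pos hw hG]
  have h1 : Iu E w (fun y => fderiv ℝ G y ((eq2 i).1, 0)) x = 0 := by
    simp only [eq2, Iu, Ju]
    have : ((0 : V n), (0 : V n)) = 0 := rfl
    simp only [this, map_zero, mul_zero, integral_zero]
  have h2 : ∀ j, Iu E (fun t => rho t.1 * t.2 j * w t)
        (fun y => fderiv ℝ (ee E) y.1 (eq2 i).1 * dq j G y) x = 0 := by
    intro j
    simp only [eq2, Iu, Ju, map_zero, zero_mul, mul_zero, integral_zero]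
  rw [h1, Finset.sum_eq_zero fun j _ => h2 j, zero_add, add_zero]
  rfl

theorem dq_ex (hE : ContDiff ℝ ∞ E) {F : V n × V n → ℝ} (hF : Differentiable ℝ F) (i : Fin n)
    (x : V n × V n) : dq i (fun x => ex E x * F x) x =
      ex E x * (dq i F x - E x.1 * x.2 i * F x) := by
  have h1 := ((ex_cd hE).differentiable (by simp) x).hasFDerivAt.mul (hF x).hasFDerivAt
  have h2 := h1.fderiv
  change fderiv ℝ (fun x => ex E x * F x) x = _ at h2
  rw [dq, h2]
  simp only [add_apply, smul_apply, smul_eq_mul, ex_fd hE]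
  simp only [eq2, map_zero, zero_div, neg_zero, zero_mul, zero_sub, Pi.single_apply, mul_ite,
    mul_one, mul_zero, Finset.sum_ite_eq', Finset.mem_univ, if_true, dq]
  ring

theorem dq_q (hE : ContDiff ℝ ∞ E) {F : V n × V n → ℝ} (hF : Differentiable ℝ F)
    {F' : V n × V n → ℝ} (hF' : Differentiable ℝ F') (i : Fin n)
    (x : V n × V n) : dq i (fun x => F' x - E x.1 * x.2 i * F x) x =
      dq i F' x - (E x.1 * F x + E x.1 * x.2 i * dq i F x) := by
  have h1 : HasFDerivAt (fun x : V n × V n => x.2 i)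
      ((ContinuousLinearMap.proj (R := ℝ) (φ := fun _ : Fin n => ℝ) i).comp
        (ContinuousLinearMap.snd ℝ (V n) (V n))) x :=
    ((ContinuousLinearMap.proj (R := ℝ) (φ := fun _ : Fin n => ℝ) i).comp
        (ContinuousLinearMap.snd ℝ (V n) (V n))).hasFDerivAt
  have h2 : HasFDerivAt (fun x : V n × V n => E x.1)
      ((fderiv ℝ E x.1).comp (ContinuousLinearMap.fst ℝ (V n) (V n))) x :=
    ((hE.differentiable (by simp)) x.1).hasFDerivAt.comp x hasFDerivAt_fst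
  have h3 := ((hF' x).hasFDerivAt.fun_sub ((h2.fun_mul h1).fun_mul (hF x).hasFDerivAt))
  rw [dq, h3.fderiv]
  simp only [sub_apply, add_apply, smul_apply, smul_eq_mul, ContinuousLinearMap.comp_apply,
    ContinuousLinearMap.proj_apply, ContinuousLinearMap.coe_snd', ContinuousLinearMap.coe_fst']
  simp only [eq2, map_zero, Pi.single_eq_same, dq]
  ring

/-- The right hand side. -/
def G0 (E : V n → ℝ) (c : V n × V n → ℝ) (y : V n × V n) : ℝ :=
  (E y.1 * ZZ n)⁻¹ * (Real.exp (E y.1 * sq y.2 / 2) * c y)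

theorem G0_tf (hE : ContDiff ℝ ∞ E) (pos : ∀ p, 0 < E p) {c : V n × V n → ℝ}
    (cc : ContDiff ℝ ∞ c) (cs : HasCompactSupport c) :
    Tf (Prod.fst '' tsupport c) (G0 E c) := by
  have h1 : Tf (Prod.fst '' tsupport c) c := ⟨cc, cs, fun x hx => ⟨x, hx, rfl⟩⟩
  have h2 : Tf (Prod.fst '' tsupport c) (fun y => Real.exp (E y.1 * sq y.2 / 2) * c y) := by
    refine ⟨?_, cs.mul_left, fun x hx => ⟨x, tsupport_mul_subset_right hx, rfl⟩⟩
    exact ((((hE.comp contDiff_fst).mul (sq_cd.comp contDiff_snd)).div_const 2).exp).mul cc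
  have h3 : ContDiff ℝ ∞ fun p => (E p * ZZ n)⁻¹ :=
    (hE.mul contDiff_const).inv fun p => (mul_pos (pos p) ZZ_pos).ne'
  exact h2.mulp h3

/-- The solution. -/
def sol (m : ℕ) (E : V n → ℝ) (c : V n × V n → ℝ) (x : V n × V n) : ℝ :=
  ex E x * Iu E (w0 m) (G0 E c) x

theorem sol_cl (m : ℕ) (hE : ContDiff ℝ ∞ E) (pos : ∀ p, 0 < E p) {c : V n × V n → ℝ}
    (cc : ContDiff ℝ ∞ c) (cs : HasCompactSupport c) :
    Cl E (Prod.fst '' tsupport c) (sol m E c) := Cl.base (w0_wt m) (G0_tf hE pos cc cs)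

theorem sol_eq {m : ℕ} (hm : n = m + 3) (hE : ContDiff ℝ ∞ E) (pos : ∀ p, 0 < E p)
    {c : V n × V n → ℝ} (cc : ContDiff ℝ ∞ c) (cs : HasCompactSupport c) (x : V n × V n) :
    - ∑ i, dq i (dq i (sol m E c)) x + (E x.1 ^ 2 * sq x.2 - 2 * E x.1) * sol m E c x = c x := by
  have hG := G0_tf hE pos cc cs
  have hw := w0_wt (n := n) m
  have hw2 : Wt (fun t : T n => t.1 ^ 2 * w0 m t) := hw.cu (some none)
  have e1 : ∀ i, dq i (Iu E (w0 m) (G0 E c)) =
      Iu E (fun t => t.1 ^ 2 * w0 m t) (dq i (G0 E c)) := fun i =>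
    funext fun x => dq_I hE pos hw hG i x
  have e2 : ∀ i, dq i (Iu E (fun t => t.1 ^ 2 * w0 m t) (dq i (G0 E c))) =
      Iu E (fun t => t.1 ^ 2 * (t.1 ^ 2 * w0 m t)) (dq i (dq i (G0 E c))) := fun i =>
    funext fun x => dq_I hE pos hw2 (hG.dq i) i x
  have d1 := Iu_df hE pos hw hG
  have d2 : ∀ i, Differentiable ℝ (Iu E (fun t => t.1 ^ 2 * w0 m t) (dq i (G0 E c))) :=
    fun i => Iu_df hE pos hw2 (hG.dq i)
  have s1 : ∀ i, dq i (sol m E c) = fun x => ex E x *
      (Iu E (fun t => t.1 ^ 2 * w0 m t) (dq i (G0 E c)) x -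
        E x.1 * x.2 i * Iu E (w0 m) (G0 E c) x) := by
    intro i
    funext x
    have := dq_ex hE d1 i x
    rw [e1] at this
    exact this
  have dE : Differentiable ℝ (fun x : V n × V n => E x.1) :=
    (hE.differentiable (by simp)).comp differentiable_fst
  have s2 : ∀ i, dq i (dq i (sol m E c)) x = ex E x *
      (Iu E (fun t => t.1 ^ 2 * (t.1 ^ 2 * w0 m t)) (dq i (dq i (G0 E c))) x -
        2 * E x.1 * (x.2 i * Iu E (fun t => t.1 ^ 2 * w0 m t) (dq i (G0 E c)) x) +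
        (E x.1 ^ 2 * x.2 i ^ 2 - E x.1) * Iu E (w0 m) (G0 E c) x) := by
    intro i
    have di : Differentiable ℝ (fun x : V n × V n => x.2 i) := by fun_prop
    rw [s1, dq_ex hE ((d2 i).fun_sub ((dE.fun_mul di).fun_mul d1)), dq_q hE d1 (d2 i), e1, e2]
    ring
  have k1 := key m hG x (ee_sq pos x.1)
  have k2 : (n : ℝ) = m + 3 := by rw [hm]; push_cast; ring
  simp only [s2]
  rw [← Finset.mul_sum, Finset.sum_add_distrib, Finset.sum_sub_distrib, ← Finset.mul_sum,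
    ← Finset.sum_mul, Finset.sum_sub_distrib, ← Finset.mul_sum, Finset.sum_const,
    Finset.card_univ, Fintype.card_fin, nsmul_eq_mul, k2]
  have k3 : ex E x * (E x.1 * ZZ n * G0 E c x) = c x := by
    rw [G0, ex]
    have h1 := (mul_pos (pos x.1) (ZZ_pos (n := n))).ne'
    rw [mul_inv_cancel_left₀ h1, ← mul_assoc, ← Real.exp_add]
    simp
  rw [← k3, ← k1]
  simp only [sol, Iu, sq]
  ring

/-! ## The derivatives -/

/-- basis -/
def bb : Fin n ⊕ Fin n → V n × V n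
  | Sum.inl i => (Pi.single i 1, 0)
  | Sum.inr i => (0, Pi.single i 1)

/-- coordinates -/
def bc : Fin n ⊕ Fin n → (V n × V n) →L[ℝ] ℝ
  | Sum.inl i => (ContinuousLinearMap.proj (R := ℝ) (φ := fun _ : Fin n => ℝ) i).comp
      (ContinuousLinearMap.fst ℝ (V n) (V n))
  | Sum.inr i => (ContinuousLinearMap.proj (R := ℝ) (φ := fun _ : Fin n => ℝ) i).comp
      (ContinuousLinearMap.snd ℝ (V n) (V n))

theorem bb_sum (v : V n × V n) : ∑ b, bc b v • bb b = v := by
  rw [Fintype.sum_sum_type]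
  refine Prod.ext ?_ ?_
  · simp only [bc, bb, Prod.fst_add, Prod.fst_sum, Prod.smul_fst, ContinuousLinearMap.comp_apply,
      ContinuousLinearMap.proj_apply, ContinuousLinearMap.coe_fst', smul_zero,
      Finset.sum_const_zero, add_zero]
    exact sum_single v.1
  · simp only [bc, bb, Prod.snd_add, Prod.snd_sum, Prod.smul_snd, ContinuousLinearMap.comp_apply,
      ContinuousLinearMap.proj_apply, ContinuousLinearMap.coe_snd', smul_zero,
      Finset.sum_const_zero, zero_add]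
    exact sum_single v.2

theorem fd_sum (f : V n × V n → ℝ) : fderiv ℝ f =
    ∑ b, (ContinuousLinearMap.toSpanSingleton ℝ (bc b)) ∘ (fun x => fderiv ℝ f x (bb b)) := by
  funext x
  refine ContinuousLinearMap.ext fun v => ?_
  have h : fderiv ℝ f x v = ∑ b, bc b v * fderiv ℝ f x (bb b) := by
    conv_lhs => rw [← bb_sum v, map_sum]
    exact Finset.sum_congr rfl fun b _ => by rw [map_smul, smul_eq_mul]
  rw [h, Finset.sum_apply, sum_apply]
  refine Finset.sum_congr rfl fun b _ => ?_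
  simp only [Function.comp_apply, ContinuousLinearMap.toSpanSingleton_apply, smul_apply,
    smul_eq_mul]
  ring

theorem Cl.rdq (hE : ContDiff ℝ ∞ E) (pos : ∀ p, 0 < E p) (hK : IsCompact K) (m : ℕ) :
    ∀ {f : V n × V n → ℝ}, Cl E K f → ∀ k : ℕ, ∃ C, ∀ x,
      (1 + ‖x.2‖) ^ k * ‖iteratedFDeriv ℝ m f x‖ ≤ C := by
  induction m with
  | zero =>
    intro f h k
    obtain ⟨C, hC⟩ := h.bd hE pos hK k
    refine ⟨C, fun x => ?_⟩
    rw [norm_iteratedFDeriv_zero]
    exact hC x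
  | succ m ih =>
    intro f h k
    choose C hC using fun b : Fin n ⊕ Fin n => ih (h.dv hE pos (bb b)) k
    refine ⟨∑ b, ‖ContinuousLinearMap.toSpanSingleton ℝ (bc (n := n) b)‖ * C b, fun x => ?_⟩
    rw [← norm_iteratedFDeriv_fderiv, fd_sum, iteratedFDeriv_sum_apply]
    · refine (mul_le_mul_of_nonneg_left (norm_sum_le _ _) (by positivity)).trans ?_
      rw [Finset.mul_sum]
      refine Finset.sum_le_sum fun b _ => ?_
      have h1 := (ContinuousLinearMap.toSpanSingleton ℝ (bc (n := n) b)).norm_iteratedFDeriv_comp_left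
        (((h.dv hE pos (bb b)).cd hE pos).contDiffAt (x := x)) (n := m) (by exact_mod_cast le_top)
      calc _ ≤ (1 + ‖x.2‖) ^ k * (‖ContinuousLinearMap.toSpanSingleton ℝ (bc (n := n) b)‖ *
          ‖iteratedFDeriv ℝ m (fun x => fderiv ℝ f x (bb b)) x‖) :=
            mul_le_mul_of_nonneg_left h1 (by positivity)
        _ = ‖ContinuousLinearMap.toSpanSingleton ℝ (bc (n := n) b)‖ * ((1 + ‖x.2‖) ^ k *
          ‖iteratedFDeriv ℝ m (fun x => fderiv ℝ f x (bb b)) x‖) := by ring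
        _ ≤ _ := mul_le_mul_of_nonneg_left (hC b x) (ContinuousLinearMap.opNorm_nonneg _)
    · intro b _
      exact ((ContinuousLinearMap.contDiff _).comp (((h.dv hE pos (bb b)).cd hE pos).of_le
        (by exact_mod_cast le_top))).contDiffAt

theorem Cl.rd (hE : ContDiff ℝ ∞ E) (pos : ∀ p, 0 < E p) (hK : IsCompact K)
    {f : V n × V n → ℝ} (h : Cl E K f) (k m : ℕ) : ∃ C, ∀ x,
      (1 + ‖x‖) ^ k * ‖iteratedFDeriv ℝ m f x‖ ≤ C := by
  obtain ⟨R, hR0, hR⟩ := hK.isBounded.exists_pos_norm_le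
  obtain ⟨C, hC⟩ := h.rdq hE pos hK m k
  refine ⟨(1 + R) ^ k * C, fun x => ?_⟩
  by_cases hx : x.1 ∈ K
  · have h1 : 1 + ‖x‖ ≤ (1 + R) * (1 + ‖x.2‖) := by
      have h2 := hR _ hx
      have h3 : ‖x‖ ≤ R + ‖x.2‖ := by
        rw [Prod.norm_def]
        exact max_le (by linarith [norm_nonneg x.2]) (by linarith)
      nlinarith [norm_nonneg x.2]
    calc (1 + ‖x‖) ^ k * ‖iteratedFDeriv ℝ m f x‖
        ≤ ((1 + R) * (1 + ‖x.2‖)) ^ k * ‖iteratedFDeriv ℝ m f x‖ :=
          mul_le_mul_of_nonneg_right (pow_le_pow_left₀ (by positivity) h1 k) (norm_nonneg _)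
      _ = (1 + R) ^ k * ((1 + ‖x.2‖) ^ k * ‖iteratedFDeriv ℝ m f x‖) := by
          rw [mul_pow]; ring
      _ ≤ _ := mul_le_mul_of_nonneg_left (hC x) (by positivity)
  · have h0 : f =ᶠ[𝓝 x] fun _ => 0 := by
      filter_upwards [(hK.isClosed.isOpen_compl.preimage continuous_fst).mem_nhds hx] with y hy
      exact h.zero_of hy
    have h2 : iteratedFDeriv ℝ m f x = 0 := by
      rw [(h0.iteratedFDeriv ℝ m).eq_of_nhds]
      have := iteratedFDeriv_fun_zero (𝕜 := ℝ) (E := V n × V n) (F := ℝ) (n := m)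
      rw [this]; rfl
    rw [h2, norm_zero, mul_zero]
    have hC0 : 0 ≤ C := le_trans (by positivity) (hC 0)
    positivity

/-- **The inverse of `B₂`** on `ℝⁿ × ℝⁿ`. -/
theorem b2 (hn : 3 ≤ n) (hE : ContDiff ℝ ∞ E) (pos : ∀ p, 0 < E p)
    {c : V n × V n → ℝ} (cc : ContDiff ℝ ∞ c) (cs : HasCompactSupport c) :
    ∃ f : V n × V n → ℝ, ContDiff ℝ ∞ f ∧ (∀ x : V n × V n, x.1 ∉ Prod.fst '' tsupport c → f x = 0) ∧
      (∀ k m : ℕ, ∃ C, ∀ x, (1 + ‖x‖) ^ k * ‖iteratedFDeriv ℝ m f x‖ ≤ C) ∧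
      ∀ x, - ∑ i, dq i (dq i f) x + (E x.1 ^ 2 * sq x.2 - 2 * E x.1) * f x = c x := by
  obtain ⟨m, hm⟩ : ∃ m, n = m + 3 := ⟨n - 3, by omega⟩
  have h := sol_cl m hE pos cc cs
  exact ⟨sol m E c, h.cd hE pos, fun x hx => h.zero_of hx,
    h.rd hE pos (cs.isCompact.image continuous_fst), sol_eq hm hE pos cc cs⟩

end Vale.Agent.P088.R2.H676.M
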