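import Mathlib

/-!
# Parameter integrals `∫ w(t) G(∑ c_k(t) B_k x) dν(t)`
-/

set_option linter.unusedSectionVars false

open MeasureTheory Set
open scoped ContDiff Topology

noncomputable section

namespace Vale.Agent.P088.R2.H676.M

section Par

variable {κ T X Y : Type} [Fintype κ] [TopologicalSpace T] [MeasurableSpace T]
  [OpensMeasurableSpace T] [SecondCountableTopology T]
  [NormedAddCommGroup X] [NormedSpace ℝ X] [NormedAddCommGroup Y] [NormedSpace ℝ Y]

/-- The argument `∑ c_k(t) B_k x`. -/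
def ar (c : κ → T → ℝ) (B : κ → X →L[ℝ] Y) (x : X) (t : T) : Y := ∑ k, c k t • B k x

/-- The parameter integral. -/
def Jg (ν : Measure T) (c : κ → T → ℝ) (B : κ → X →L[ℝ] Y) (w : T → ℝ) (G : Y → ℝ) (x : X) :
    ℝ := ∫ t, w t * G (ar c B x t) ∂ν

variable {ν : Measure T} {c : κ → T → ℝ} {B : κ → X →L[ℝ] Y} {w : T → ℝ} {G : Y → ℝ}

theorem ar_ct (hc : ∀ k, Continuous (c k)) (x : X) : Continuous (ar c B x) :=
  continuous_finsetSum _ fun k _ => (hc k).smul continuous_const

theorem ar_fd (x : X) (t : T) :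
    HasFDerivAt (fun x => ar c B x t) (∑ k, c k t • B k) x := by
  have h := (∑ k, c k t • B k).hasFDerivAt (x := x)
  refine h.congr_of_eventuallyEq (Filter.Eventually.of_forall fun y => ?_)
  simp [ar]

/-- The derivative of the integrand. -/
def dint (c : κ → T → ℝ) (B : κ → X →L[ℝ] Y) (w : T → ℝ) (G : Y → ℝ) (x : X) (t : T) :
    X →L[ℝ] ℝ := w t • ∑ k, c k t • (fderiv ℝ G (ar c B x t)).comp (B k)

theorem dint_apply (x v : X) (t : T) :
    dint c B w G x t v = ∑ k, (c k t * w t) * fderiv ℝ G (ar c B x t) (B k v) := by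
  simp only [dint, smul_apply, sum_apply,
    ContinuousLinearMap.comp_apply, smul_eq_mul, Finset.mul_sum]
  exact Finset.sum_congr rfl fun k _ => by ring

theorem dint_ct (hc : ∀ k, Continuous (c k)) (hw : Continuous w) (hG : ContDiff ℝ 1 G) (x : X) :
    Continuous (dint c B w G x) := by
  have h : Continuous fun t => fderiv ℝ G (ar c B x t) :=
    (hG.continuous_fderiv (by simp)).comp (ar_ct hc x)
  exact hw.smul (continuous_finsetSum _ fun k _ =>
    (hc k).smul (h.clm_comp continuous_const))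

theorem dint_bd {C1 : ℝ} (h1 : ∀ y, ‖fderiv ℝ G y‖ ≤ C1) (x : X) (t : T) :
    ‖dint c B w G x t‖ ≤ ∑ k, |c k t * w t| * (C1 * ‖B k‖) := by
  rw [dint, Finset.smul_sum]
  refine (norm_sum_le _ _).trans (Finset.sum_le_sum fun k _ => ?_)
  rw [smul_smul, norm_smul, Real.norm_eq_abs, mul_comm (w t)]
  refine mul_le_mul_of_nonneg_left ?_ (abs_nonneg _)
  exact (ContinuousLinearMap.opNorm_comp_le _ _).trans
    (mul_le_mul_of_nonneg_right (h1 _) (norm_nonneg _))

theorem int_mul (hc : ∀ k, Continuous (c k)) (hG : Continuous G) {C0 : ℝ}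
    (h0 : ∀ y, |G y| ≤ C0) (iw : Integrable w ν) (x : X) :
    Integrable (fun t => w t * G (ar c B x t)) ν := by
  refine iw.mul_bdd (c := C0) (hG.comp (ar_ct hc x)).aestronglyMeasurable ?_
  exact Filter.Eventually.of_forall fun t => by simpa using h0 _

theorem Jg_fd (hc : ∀ k, Continuous (c k)) (hw : Continuous w) (hG : ContDiff ℝ 1 G)
    {C0 C1 : ℝ} (h0 : ∀ y, |G y| ≤ C0) (h1 : ∀ y, ‖fderiv ℝ G y‖ ≤ C1)
    (iw : Integrable w ν) (iwc : ∀ k, Integrable (fun t => c k t * w t) ν) (x : X) :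
    HasFDerivAt (Jg ν c B w G) (∫ t, dint c B w G x t ∂ν) x := by
  refine hasFDerivAt_integral_of_dominated_of_fderiv_le (s := univ)
    (bound := fun t => ∑ k, |c k t * w t| * (C1 * ‖B k‖)) Filter.univ_mem ?_ ?_ ?_ ?_ ?_ ?_
  · exact Filter.Eventually.of_forall fun y => (int_mul hc hG.continuous h0 iw y).1
  · exact int_mul hc hG.continuous h0 iw x
  · exact (dint_ct hc hw hG x).aestronglyMeasurable
  · exact Filter.Eventually.of_forall fun t y _ => dint_bd h1 y t
  · exact integrable_finsetSum _ fun k _ => (iwc k).abs.mul_const _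
  · refine Filter.Eventually.of_forall fun t y _ => ?_
    have h2 : HasFDerivAt (fun x => w t * G (ar c B x t))
        (w t • (fderiv ℝ G (ar c B y t)).comp (∑ k, c k t • B k)) y :=
      ((hG.differentiable (by simp) _).hasFDerivAt.comp y
        (ar_fd (c := c) (B := B) y t)).const_mul (w t)
    have h3 : w t • (fderiv ℝ G (ar c B y t)).comp (∑ k, c k t • B k) = dint c B w G y t := by
      ext v
      simp only [dint_apply, smul_apply, ContinuousLinearMap.comp_apply,
        sum_apply, smul_eq_mul, map_sum, Finset.mul_sum, map_smul]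
      exact Finset.sum_congr rfl fun k _ => by ring
    rw [← h3]
    exact h2

theorem dint_int (hc : ∀ k, Continuous (c k)) (hw : Continuous w) (hG : ContDiff ℝ 1 G)
    {C1 : ℝ} (h1 : ∀ y, ‖fderiv ℝ G y‖ ≤ C1)
    (iwc : ∀ k, Integrable (fun t => c k t * w t) ν) (x : X) :
    Integrable (dint c B w G x) ν :=
  (integrable_finsetSum _ fun k _ => (iwc k).abs.mul_const (C1 * ‖B k‖)).mono'
    (dint_ct hc hw hG x).aestronglyMeasurable (Filter.Eventually.of_forall fun t => dint_bd h1 x t)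

theorem Jg_fderiv (hc : ∀ k, Continuous (c k)) (hw : Continuous w) (hG : ContDiff ℝ 1 G)
    {C0 C1 : ℝ} (h0 : ∀ y, |G y| ≤ C0) (h1 : ∀ y, ‖fderiv ℝ G y‖ ≤ C1)
    (iw : Integrable w ν) (iwc : ∀ k, Integrable (fun t => c k t * w t) ν) (x v : X) :
    fderiv ℝ (Jg ν c B w G) x v =
      ∑ k, Jg ν c B (fun t => c k t * w t) (fun y => fderiv ℝ G y (B k v)) x := by
  rw [(Jg_fd hc hw hG h0 h1 iw iwc x).fderiv,
    ContinuousLinearMap.integral_apply (dint_int hc hw hG h1 iwc x)]
  simp only [dint_apply, Jg]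
  rw [integral_finsetSum]
  intro k _
  refine int_mul hc ((hG.continuous_fderiv (by simp)).clm_apply continuous_const)
    (C0 := C1 * ‖B k v‖) (fun y => ?_) (iwc k) x
  rw [← Real.norm_eq_abs]
  exact (ContinuousLinearMap.le_opNorm _ _).trans
    (mul_le_mul_of_nonneg_right (h1 _) (norm_nonneg _))

theorem Jg_bd {C0 : ℝ} (h0 : ∀ y, |G y| ≤ C0)
    (iw : Integrable w ν) (x : X) : |Jg ν c B w G x| ≤ (∫ t, |w t| ∂ν) * C0 := by
  rw [Jg, ← Real.norm_eq_abs, ← integral_mul_const]
  refine norm_integral_le_of_norm_le (iw.abs.mul_const C0) (Filter.Eventually.of_forall fun t => ?_)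
  rw [norm_mul, Real.norm_eq_abs, Real.norm_eq_abs]
  exact mul_le_mul_of_nonneg_left (h0 _) (abs_nonneg _)

end Par

end Vale.Agent.P088.R2.H676.M
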