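import Vale.Agent.P088.R2.H676.M.Main
import Vale.Agent.P088.R2.H961.S.Fram

/-!
# The inverse of `B₂` in the class `SW π`
-/

set_option linter.unusedSectionVars false

open MeasureTheory Set
open scoped ContDiff Topology

noncomputable section

namespace Vale.Agent.P088.R2.H676.M

open Vale.Agent.P088.R2.H961.S (SW Fram Dat Mu dv ds ml bs ln tst dv_ml)

variable {n : ℕ} {X : Type} [NormedAddCommGroup X] [NormedSpace ℝ X] {π : X →L[ℝ] V n}

/-- The coordinates `(p, q)`. -/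
def Psi (F : Fram (Fin n) π) : X →L[ℝ] V n × V n := π.prod (ContinuousLinearMap.pi F.q)

/-- A linear section of the coordinates. -/
structure Sec (F : Fram (Fin n) π) where
  /-- the section -/
  s : V n × V n →L[ℝ] X
  h1 : ∀ x, π (s x) = x.1
  h2 : ∀ x i, F.q i (s x) = x.2 i

variable {F : Fram (Fin n) π}

theorem Sec.right (Λ : Sec F) (x : V n × V n) : Psi F (Λ.s x) = x := by
  refine Prod.ext (Λ.h1 x) ?_
  funext i
  exact Λ.h2 x i

theorem Sec.left (Λ : Sec F) (z : X) : Λ.s (Psi F z) = z := by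
  have h : Λ.s (Psi F z) - z = 0 := by
    refine F.inj _ ?_ fun i => ?_
    · rw [map_sub, Λ.h1]
      exact sub_self _
    · rw [map_sub, Λ.h2]
      exact sub_self _
  exact sub_eq_zero.1 h

/-- The coordinates as an equivalence. -/
def Sec.eqv (Λ : Sec F) : X ≃L[ℝ] V n × V n :=
  ContinuousLinearEquiv.equivOfInverse (Psi F) Λ.s Λ.left Λ.right

theorem Psi_a (i : Fin n) : Psi F (F.a i) = eq2 i := by
  refine Prod.ext (F.ap i) ?_
  funext j
  change F.q j (F.a i) = _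
  rw [F.aq]
  simp only [eq2, Pi.single_apply, eq_comm]

theorem sol_sw (Λ : Sec F) (hn : 3 ≤ n) {E : V n → ℝ} (hE : ContDiff ℝ ∞ E)
    (pos : ∀ p, 0 < E p) {c : X → ℝ} (cc : ContDiff ℝ ∞ c) (cs : HasCompactSupport c) :
    ∃ f : SW π, ∀ z, - ∑ i, fderiv ℝ (fun y => fderiv ℝ f.fn y (F.a i)) z (F.a i) +
      (E (π z) ^ 2 * ∑ i, (F.q i z) ^ 2 - 2 * E (π z)) * f.fn z = c z := by
  have cc' : ContDiff ℝ ∞ (c ∘ Λ.eqv.symm) := cc.comp Λ.eqv.symm.contDiff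
  have cs' : HasCompactSupport (c ∘ Λ.eqv.symm) :=
    cs.comp_homeomorph Λ.eqv.symm.toHomeomorph
  obtain ⟨φ, h1, h2, h3, h4⟩ := b2 hn hE pos cc' cs'
  have h5 : ∀ z, Psi F z = Λ.eqv z := fun z => rfl
  refine ⟨⟨fun z => φ (Psi F z), h1.comp (Psi F).contDiff, ⟨Prod.fst '' tsupport (c ∘ Λ.eqv.symm),
    cs'.isCompact.image continuous_fst, fun z hz => h2 _ hz⟩, ?_⟩, fun z => ?_⟩
  · intro k m
    obtain ⟨C, hC⟩ := h3 k m
    refine ⟨(1 + ‖Λ.s‖) ^ k * (C * ‖Psi F‖ ^ m), fun z => ?_⟩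
    have e1 : 1 + ‖z‖ ≤ (1 + ‖Λ.s‖) * (1 + ‖Psi F z‖) := by
      have := Λ.s.le_opNorm (Psi F z)
      rw [Λ.left] at this
      nlinarith [norm_nonneg Λ.s, norm_nonneg (Psi F z)]
    have e2 : ‖iteratedFDeriv ℝ m (fun z => φ (Psi F z)) z‖ ≤
        ‖iteratedFDeriv ℝ m φ (Psi F z)‖ * ‖Psi F‖ ^ m := by
      have e3 : iteratedFDeriv ℝ m (fun z => φ (Psi F z)) z =
          (iteratedFDeriv ℝ m φ (Psi F z)).compContinuousLinearMap fun _ => Psi F :=
        (Psi F).iteratedFDeriv_comp_right h1 z (by exact_mod_cast le_top)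
      rw [e3]
      refine (ContinuousMultilinearMap.norm_compContinuousLinearMap_le _ _).trans ?_
      simp only [Finset.prod_const, Finset.card_univ, Fintype.card_fin]
      exact le_rfl
    calc (1 + ‖z‖) ^ k * ‖iteratedFDeriv ℝ m (fun z => φ (Psi F z)) z‖
        ≤ ((1 + ‖Λ.s‖) * (1 + ‖Psi F z‖)) ^ k *
          (‖iteratedFDeriv ℝ m φ (Psi F z)‖ * ‖Psi F‖ ^ m) :=
          mul_le_mul (pow_le_pow_left₀ (by positivity) e1 k) e2 (norm_nonneg _) (by positivity)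
      _ = (1 + ‖Λ.s‖) ^ k * (((1 + ‖Psi F z‖) ^ k * ‖iteratedFDeriv ℝ m φ (Psi F z)‖) *
          ‖Psi F‖ ^ m) := by rw [mul_pow]; ring
      _ ≤ (1 + ‖Λ.s‖) ^ k * (C * ‖Psi F‖ ^ m) := by
          refine mul_le_mul_of_nonneg_left ?_ (by positivity)
          exact mul_le_mul_of_nonneg_right (hC _) (by positivity)
  · have d1 : ∀ {g : V n × V n → ℝ}, ContDiff ℝ ∞ g → ∀ i z,
        fderiv ℝ (fun z => g (Psi F z)) z (F.a i) = dq i g (Psi F z) := by
      intro g hg i z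
      have := ((hg.differentiable (by simp) (Psi F z)).hasFDerivAt.comp z
        (Psi F).hasFDerivAt).fderiv
      change fderiv ℝ (fun z => g (Psi F z)) z = _ at this
      rw [this, ContinuousLinearMap.comp_apply, Psi_a]
      rfl
    have d2 : ∀ i, fderiv ℝ (fun y => fderiv ℝ (fun z => φ (Psi F z)) y (F.a i)) z (F.a i) =
        dq i (dq i φ) (Psi F z) := by
      intro i
      have e1 : (fun y => fderiv ℝ (fun z => φ (Psi F z)) y (F.a i)) =
          fun y => dq i φ (Psi F y) := funext fun y => d1 h1 i y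
      rw [e1]
      exact d1 (g := dq i φ) (cd_dv h1 _) i z
    simp only [d2]
    have h6 := h4 (Psi F z)
    have h7 : (c ∘ Λ.eqv.symm) (Psi F z) = c z := by
      rw [h5, Function.comp_apply, ContinuousLinearEquiv.symm_apply_apply]
    rw [h7] at h6
    exact h6

theorem sum_fn {κ : Type} (s : Finset κ) (f : κ → SW π) (z : X) :
    (∑ k ∈ s, f k).fn z = ∑ k ∈ s, (f k).fn z := by
  have h : SW.fnHom (∑ k ∈ s, f k) = ∑ k ∈ s, SW.fnHom (f k) := map_sum _ _ _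
  have h1 := congrFun h z
  rw [Finset.sum_apply] at h1
  exact h1

theorem DsD (S : Dat (Fin n) π) (k : Fin n) : S.Ds k * S.D k =
    ml (S.e * S.q k * (S.e * S.q k)) - dv (S.a k) * dv (S.a k) - S.EE := by
  have h1 := dv_ml (S.a k) (S.e * S.q k)
  rw [S.aeq, if_pos rfl] at h1
  rw [Dat.Ds, Dat.D, sub_mul, mul_add, mul_add, h1, Dat.EE, map_mul (f := (ml : Mu π →ₐ[ℝ] _))
    (S.e * S.q k)]
  abel

/-- **The inverse of `B₂`** for the data of a frame. -/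
theorem b2_dat (Λ : Sec F) (hn : 3 ≤ n) (E₀ : ℝ) (hE : 0 < E₀) (l φ : V n → ℝ)
    (cl : ContDiff ℝ ∞ l) (cφ : ContDiff ℝ ∞ φ) {c : X → ℝ} (cc : ContDiff ℝ ∞ c)
    (cs : HasCompactSupport c) :
    ∃ f : SW π, (∑ k, (F.dat E₀ hE l φ cl cφ).Ds k * (F.dat E₀ hE l φ cl cφ).D k +
      ((n : ℝ) - 2) • (F.dat E₀ hE l φ cl cφ).EE) f = tst c cc cs := by
  obtain ⟨f, hf⟩ := sol_sw Λ hn (H961.S.cexp (E₀ := E₀) (t := 2) cl)
    (fun p => by positivity) cc cs
  refine ⟨f, ?_⟩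
  ext z
  have hz := hf z
  have e1 : ∀ k, (((F.dat E₀ hE l φ cl cφ).Ds k * (F.dat E₀ hE l φ cl cφ).D k) f).fn z =
      (E₀ * Real.exp (2 * l (π z)) * F.q k z * (E₀ * Real.exp (2 * l (π z)) * F.q k z)) * f.fn z -
      fderiv ℝ (fun y => fderiv ℝ f.fn y (F.a k)) z (F.a k) -
      E₀ * Real.exp (2 * l (π z)) * f.fn z := by
    intro k
    rw [DsD]
    rfl
  change ((∑ k, (F.dat E₀ hE l φ cl cφ).Ds k * (F.dat E₀ hE l φ cl cφ).D k) f +
    (((n : ℝ) - 2) • (F.dat E₀ hE l φ cl cφ).EE) f).fn z = c z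
  rw [LinearMap.sum_apply, SW.add_fn, sum_fn]
  simp only [e1]
  have e2 : ((((n : ℝ) - 2) • (F.dat E₀ hE l φ cl cφ).EE) f).fn z =
      ((n : ℝ) - 2) * (E₀ * Real.exp (2 * l (π z)) * f.fn z) := rfl
  rw [e2, Finset.sum_sub_distrib, Finset.sum_sub_distrib, Finset.sum_const, Finset.card_univ,
    Fintype.card_fin, nsmul_eq_mul, ← Finset.sum_mul, ← hz]
  have e3 : ∑ k, E₀ * Real.exp (2 * l (π z)) * F.q k z * (E₀ * Real.exp (2 * l (π z)) * F.q k z) =
      (E₀ * Real.exp (2 * l (π z))) ^ 2 * ∑ k, (F.q k z) ^ 2 := by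
    rw [Finset.mul_sum]
    exact Finset.sum_congr rfl fun k _ => by ring
  rw [e3]
  ring

/-- The section of the frame of pairs. -/
def secV (n : ℕ) : Sec (H961.S.frV (Fin n)) where
  s := (ContinuousLinearMap.fst ℝ (V n) (V n) +
      (1 / 2 : ℝ) • ContinuousLinearMap.snd ℝ (V n) (V n)).prod
    (ContinuousLinearMap.fst ℝ (V n) (V n) -
      (1 / 2 : ℝ) • ContinuousLinearMap.snd ℝ (V n) (V n))
  h1 x := by
    funext i
    change (1 / 2 : ℝ) * ((x.1 i + (1 / 2 : ℝ) * x.2 i) + (x.1 i - (1 / 2 : ℝ) * x.2 i)) = x.1 i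
    ring
  h2 x i := by
    change (x.1 i + (1 / 2 : ℝ) * x.2 i) - (x.1 i - (1 / 2 : ℝ) * x.2 i) = x.2 i
    ring

open Vale.Agent.P088.HY.H593W in
/-- `B₂` of the structure `Osc` is onto the test functions. -/
theorem b2_osc [MeasurableSpace X] [BorelSpace X] [FiniteDimensional ℝ X] (μ : Measure X)
    [μ.IsAddHaarMeasure] (Λ : Sec F) (hn : 3 ≤ n) (E₀ : ℝ) (hE : 0 < E₀) (l φ : V n → ℝ)
    (cl : ContDiff ℝ ∞ l) (cφ : ContDiff ℝ ∞ φ) {c : X → ℝ} (cc : ContDiff ℝ ∞ c)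
    (cs : HasCompactSupport c) :
    ∃ f : SW π, ((F.dat E₀ hE l φ cl cφ).osc μ).B2 f = tst c cc cs := by
  obtain ⟨f, hf⟩ := b2_dat Λ hn E₀ hE l φ cl cφ cc cs
  refine ⟨f, ?_⟩
  rw [← hf, Osc.B2_apply, Osc.N_apply, Fintype.card_fin]
  simp only [LinearMap.add_apply, LinearMap.sum_apply, Module.End.mul_apply,
    LinearMap.smul_apply]
  rfl

end Vale.Agent.P088.R2.H676.M
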