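import Vale.Agent.P088.R2.H676.M.Par

/-!
# Weights, test functions and the two parameter integrals
-/

set_option linter.unusedSectionVars false

open MeasureTheory Set
open scoped ContDiff Topology

noncomputable section

namespace Vale.Agent.P088.R2.H676.M

/-- `ℝⁿ` -/
abbrev V (n : ℕ) := Fin n → ℝ

variable {n : ℕ}

/-! ## Elementary bounds -/

/-- `|z|²` -/
def sq (z : V n) : ℝ := ∑ i, z i ^ 2

theorem sq_nonneg (z : V n) : 0 ≤ sq z := Finset.sum_nonneg fun i _ => pow_two_nonneg (z i)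

theorem norm_sq_le (z : V n) : ‖z‖ ^ 2 ≤ sq z := by
  have h : ‖z‖ ≤ √(sq z) := by
    refine (pi_norm_le_iff_of_nonneg (Real.sqrt_nonneg _)).2 fun i => ?_
    rw [Real.norm_eq_abs]
    refine Real.abs_le_sqrt ?_
    exact Finset.single_le_sum (f := fun i => z i ^ 2) (fun i _ => pow_two_nonneg (z i))
      (Finset.mem_univ i)
  calc ‖z‖ ^ 2 ≤ √(sq z) ^ 2 := pow_le_pow_left₀ (norm_nonneg _) h 2
    _ = sq z := Real.sq_sqrt (sq_nonneg z)

theorem sq_cd : ContDiff ℝ ∞ (sq : V n → ℝ) := by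
  unfold sq
  fun_prop

theorem pow_exp (k : ℕ) {ε r : ℝ} (hε : 0 < ε) (hr : 0 ≤ r) :
    (1 + r) ^ k * Real.exp (-(ε * r ^ 2 / 2)) ≤ k.factorial * Real.exp (1 + 1 / (2 * ε)) := by
  have h1 : (1 + r) ^ k ≤ k.factorial * Real.exp (1 + r) := by
    have := Real.pow_div_factorial_le_exp (1 + r) (by linarith) k
    rw [div_le_iff₀ (by positivity)] at this
    linarith
  calc (1 + r) ^ k * Real.exp (-(ε * r ^ 2 / 2))
      ≤ (k.factorial * Real.exp (1 + r)) * Real.exp (-(ε * r ^ 2 / 2)) :=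
        mul_le_mul_of_nonneg_right h1 (Real.exp_pos _).le
    _ = k.factorial * Real.exp (1 + r + -(ε * r ^ 2 / 2)) := by
        rw [mul_assoc, ← Real.exp_add]
    _ ≤ k.factorial * Real.exp (1 + 1 / (2 * ε)) := by
        refine mul_le_mul_of_nonneg_left (Real.exp_le_exp.2 ?_) (by positivity)
        have : 1 / (2 * ε) - (r - ε * r ^ 2 / 2) = (ε * r - 1) ^ 2 / (2 * ε) := by
          field_simp
          ring
        have h2 : 0 ≤ (ε * r - 1) ^ 2 / (2 * ε) := by positivity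
        linarith

/-- The Gaussian weight. -/
def gam (z : V n) : ℝ := Real.exp (-(sq z / 2))

theorem gam_cd : ContDiff ℝ ∞ (gam : V n → ℝ) :=
  ((sq_cd.div_const 2).neg).exp

theorem gam_bd (k : ℕ) (z : V n) :
    (1 + ‖z‖) ^ k * gam z ≤ k.factorial * Real.exp (1 + 1 / (2 * 1)) := by
  refine le_trans ?_ (pow_exp k one_pos (norm_nonneg z))
  refine mul_le_mul_of_nonneg_left (Real.exp_le_exp.2 ?_) (by positivity)
  have := norm_sq_le z
  linarith

/-! ## Weights on `ℝⁿ` -/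

/-- Continuous rapidly decreasing functions. -/
structure Rd (w : V n → ℝ) : Prop where
  ct : Continuous w
  bd : ∀ k : ℕ, ∃ C, ∀ z, (1 + ‖z‖) ^ k * |w z| ≤ C

theorem gam_rd : Rd (gam : V n → ℝ) where
  ct := gam_cd.continuous
  bd k := ⟨_, fun z => by
    rw [abs_of_pos (show 0 < gam z from Real.exp_pos _)]
    exact gam_bd k z⟩

theorem int_b : Integrable (fun z : V n => (1 + ‖z‖) ^ (-((n : ℝ) + 1))) volume :=
  integrable_one_add_norm (by simp)

theorem le_b {w C : ℝ} {z : V n} (h : (1 + ‖z‖) ^ (n + 1) * |w| ≤ C) :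
    ‖w‖ ≤ C * (1 + ‖z‖) ^ (-((n : ℝ) + 1)) := by
  have h1 : (0 : ℝ) < 1 + ‖z‖ := by positivity
  have h2 : (1 + ‖z‖) ^ (-((n : ℝ) + 1)) = ((1 + ‖z‖) ^ (n + 1))⁻¹ := by
    rw [Real.rpow_neg h1.le, ← Real.rpow_natCast]
    push_cast
    rfl
  rw [h2, Real.norm_eq_abs, ← div_eq_mul_inv, le_div_iff₀ (by positivity)]
  linarith

theorem Rd.int {w : V n → ℝ} (h : Rd w) : Integrable w volume := by
  obtain ⟨C, hC⟩ := h.bd (n + 1)
  exact (int_b.const_mul C).mono' h.ct.aestronglyMeasurable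
    (Filter.Eventually.of_forall fun z => le_b (hC z))

theorem Rd.mul {w : V n → ℝ} (h : Rd w) {a : V n → ℝ} (ha : Continuous a)
    (hb : ∀ z, |a z| ≤ 1 + ‖z‖) : Rd (fun z => a z * w z) where
  ct := ha.mul h.ct
  bd k := by
    obtain ⟨C, hC⟩ := h.bd (k + 1)
    refine ⟨C, fun z => le_trans ?_ (hC z)⟩
    rw [abs_mul, pow_succ, mul_assoc]
    refine mul_le_mul_of_nonneg_left ?_ (by positivity)
    exact mul_le_mul_of_nonneg_right (hb z) (abs_nonneg _)

/-! ## Weights on `(0,1) × ℝⁿ` -/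

/-- The parameter space. -/
abbrev T (n : ℕ) := ℝ × V n

/-- The measure `du dz` on `(0,1) × ℝⁿ`. -/
def nu (n : ℕ) : Measure (T n) := (volume.restrict (Ioo (0 : ℝ) 1)).prod volume

theorem nu_ae : ∀ᵐ t ∂(nu n), t.1 ∈ Ioo (0 : ℝ) 1 := by
  have h : nu n = (volume.prod volume).restrict (Ioo (0 : ℝ) 1 ×ˢ univ) := by
    rw [nu, ← Measure.prod_restrict, Measure.restrict_univ]
  rw [h]
  filter_upwards [ae_restrict_mem (measurableSet_Ioo.prod MeasurableSet.univ)] with t ht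
  exact ht.1

/-- Weights. -/
structure Wt (w : T n → ℝ) : Prop where
  ct : Continuous w
  bd : ∀ k : ℕ, ∃ C, ∀ t : T n, t.1 ∈ Ioo (0 : ℝ) 1 → (1 + ‖t.2‖) ^ k * |w t| ≤ C

theorem Wt.int {w : T n → ℝ} (h : Wt w) : Integrable w (nu n) := by
  obtain ⟨C, hC⟩ := h.bd (n + 1)
  have h1 : Integrable (fun t : T n => C * (1 + ‖t.2‖) ^ (-((n : ℝ) + 1))) (nu n) :=
    (int_b.const_mul C).comp_snd _
  refine h1.mono' h.ct.aestronglyMeasurable ?_
  filter_upwards [nu_ae] with t ht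
  exact le_b (hC t ht)

theorem Wt.mul {w : T n → ℝ} (h : Wt w) {a : T n → ℝ} (ha : Continuous a)
    (hb : ∀ t : T n, t.1 ∈ Ioo (0 : ℝ) 1 → |a t| ≤ 1 + ‖t.2‖) : Wt (fun t => a t * w t) where
  ct := ha.mul h.ct
  bd k := by
    obtain ⟨C, hC⟩ := h.bd (k + 1)
    refine ⟨C, fun t ht => le_trans ?_ (hC t ht)⟩
    rw [abs_mul, pow_succ, mul_assoc]
    refine mul_le_mul_of_nonneg_left ?_ (by positivity)
    exact mul_le_mul_of_nonneg_right (hb t ht) (abs_nonneg _)

/-- The weight `u^m gam(z)`. -/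
def w0 (m : ℕ) (t : T n) : ℝ := t.1 ^ m * gam t.2

theorem w0_wt (m : ℕ) : Wt (w0 m : T n → ℝ) where
  ct := (continuous_fst.pow m).mul (gam_cd.continuous.comp continuous_snd)
  bd k := by
    refine ⟨_, fun t ht => le_trans ?_ (gam_bd k t.2)⟩
    refine mul_le_mul_of_nonneg_left ?_ (by positivity)
    have h0 : 0 < gam t.2 := Real.exp_pos _
    rw [w0, abs_mul, abs_of_pos h0, abs_of_nonneg (pow_nonneg ht.1.le m)]
    exact mul_le_of_le_one_left h0.le (pow_le_one₀ ht.1.le ht.2.le)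

/-! ## Test functions -/

/-- Test functions with `p`-support in `K`. -/
structure Tf (K : Set (V n)) (G : V n × V n → ℝ) : Prop where
  cd : ContDiff ℝ ∞ G
  cs : HasCompactSupport G
  sp : ∀ x ∈ tsupport G, x.1 ∈ K

variable {K : Set (V n)} {G : V n × V n → ℝ}

theorem cd_dv {E : Type} [NormedAddCommGroup E] [NormedSpace ℝ E] {G : E → ℝ}
    (h : ContDiff ℝ ∞ G) (v : E) : ContDiff ℝ ∞ (fun x => fderiv ℝ G x v) :=
  (h.fderiv_right (m := ∞) (by simp)).clm_apply contDiff_const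

theorem Tf.dv (h : Tf K G) (v : V n × V n) : Tf K (fun x => fderiv ℝ G x v) where
  cd := cd_dv h.cd v
  cs := h.cs.fderiv_apply ℝ v
  sp x hx := h.sp x (tsupport_fderiv_apply_subset ℝ v hx)

theorem Tf.mulp (h : Tf K G) {a : V n → ℝ} (ha : ContDiff ℝ ∞ a) :
    Tf K (fun x => a x.1 * G x) where
  cd := (ha.comp contDiff_fst).mul h.cd
  cs := h.cs.mul_left
  sp x hx := h.sp x (tsupport_mul_subset_right hx)

theorem Tf.b0 (h : Tf K G) : ∃ C, ∀ y, |G y| ≤ C := by
  obtain ⟨C, hC⟩ := h.cs.exists_bound_of_continuous h.cd.continuous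
  exact ⟨C, hC⟩

theorem Tf.b1 (h : Tf K G) : ∃ C, ∀ y, ‖fderiv ℝ G y‖ ≤ C :=
  (h.cs.fderiv ℝ).exists_bound_of_continuous (h.cd.continuous_fderiv (by simp))

theorem Tf.zero (h : Tf K G) {x : V n × V n} (hx : x.1 ∉ K) : G x = 0 :=
  image_eq_zero_of_notMem_tsupport fun h1 => hx (h.sp x h1)

/-! ## The integral over `z` -/

/-- coefficients -/
def cz : Option (Fin n) → V n → ℝ
  | none => fun _ => 1
  | some i => fun z => z i

/-- unit vector in the second factor -/
def eq2 (i : Fin n) : V n × V n := (0, Pi.single i 1)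

/-- linear maps -/
def Bz : Option (Fin n) → (V n × V n × ℝ) →L[ℝ] (V n × V n)
  | none => (ContinuousLinearMap.fst ℝ (V n) (V n × ℝ)).prod
      ((ContinuousLinearMap.fst ℝ (V n) ℝ).comp (ContinuousLinearMap.snd ℝ (V n) (V n × ℝ)))
  | some i => ((ContinuousLinearMap.snd ℝ (V n) ℝ).comp
      (ContinuousLinearMap.snd ℝ (V n) (V n × ℝ))).smulRight (eq2 i)

/-- `j w G (p, a, r) = ∫ w(z) G(p, a + r z) dz` -/
def jz (w : V n → ℝ) (G : V n × V n → ℝ) (x : V n × V n × ℝ) : ℝ :=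
  ∫ z, w z * G (x.1, x.2.1 + x.2.2 • z)

theorem sum_single (z : V n) : ∑ i, z i • (Pi.single i (1 : ℝ) : V n) = z := by
  ext j
  simp [Finset.sum_apply, Pi.single_apply]

theorem sum_pair (r : ℝ) (z : V n) :
    ∑ i, ((0 : V n), r • (z i • (Pi.single i (1 : ℝ) : V n))) = (0, r • z) := by
  refine Prod.ext ?_ ?_
  · rw [Prod.fst_sum]
    simp
  · rw [Prod.snd_sum]
    simp only
    rw [← Finset.smul_sum, sum_single]

theorem arz (x : V n × V n × ℝ) (z : V n) :
    ar cz Bz x z = (x.1, x.2.1 + x.2.2 • z) := by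
  rw [ar, Fintype.sum_option]
  have h : ∑ i : Fin n, cz (some i) z • Bz (some i) x = (0, x.2.2 • z) := by
    have h1 : ∀ i : Fin n, cz (some i) z • Bz (some i) x = (0, x.2.2 • (z i • Pi.single i 1)) := by
      intro i
      simp [cz, Bz, eq2, smul_smul, mul_comm]
    rw [Finset.sum_congr rfl fun i _ => h1 i, sum_pair]
  rw [h]
  simp [cz, Bz]

theorem jz_eq (w : V n → ℝ) (G : V n × V n → ℝ) : jz w G = Jg volume cz Bz w G := by
  funext x
  simp only [jz, Jg, arz]

theorem cz_ct (k : Option (Fin n)) : Continuous (cz k) := by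
  cases k with
  | none => exact continuous_const
  | some i => exact continuous_apply i

theorem cz_bd (k : Option (Fin n)) (z : V n) : |cz k z| ≤ 1 + ‖z‖ := by
  cases k with
  | none => simp [cz]
  | some i =>
    have := norm_le_pi_norm z i
    rw [Real.norm_eq_abs] at this
    simp only [cz]
    linarith

theorem jz_df {w : V n → ℝ} (hw : Rd w) (hG : Tf K G) : Differentiable ℝ (jz w G) := by
  obtain ⟨C0, h0⟩ := hG.b0
  obtain ⟨C1, h1⟩ := hG.b1
  rw [jz_eq]
  exact fun x => (Jg_fd cz_ct hw.ct (hG.cd.of_le (by simp)) h0 h1 hw.int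
    (fun k => (hw.mul (cz_ct k) (cz_bd k)).int) x).differentiableAt

theorem jz_fd {w : V n → ℝ} (hw : Rd w) (hG : Tf K G) (x v : V n × V n × ℝ) :
    fderiv ℝ (jz w G) x v = jz w (fun y => fderiv ℝ G y (v.1, v.2.1)) x +
      v.2.2 * ∑ i, jz (fun z => z i * w z) (fun y => fderiv ℝ G y (eq2 i)) x := by
  obtain ⟨C0, h0⟩ := hG.b0
  obtain ⟨C1, h1⟩ := hG.b1
  rw [jz_eq, Jg_fderiv cz_ct hw.ct (hG.cd.of_le (by simp)) h0 h1 hw.int
    (fun k => (hw.mul (cz_ct k) (cz_bd k)).int) x, Fintype.sum_option, Finset.mul_sum]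
  congr 1
  · rw [jz_eq]
    simp [cz, Bz]
  · refine Finset.sum_congr rfl fun i _ => ?_
    rw [jz_eq]
    simp only [Jg, cz, Bz, ContinuousLinearMap.smulRight_apply, ContinuousLinearMap.comp_apply,
      map_smul, smul_eq_mul, ← integral_const_mul]
    refine integral_congr_ae (Filter.Eventually.of_forall fun z => ?_)
    simp only [ContinuousLinearMap.coe_snd']
    ring

/-! ## The integral over `(u, z)` -/

/-- `√(1 - u⁴)` -/
def rho (u : ℝ) : ℝ := √(1 - u ^ 4)

theorem rho_ct : Continuous rho := by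
  unfold rho
  fun_prop

theorem rho_nonneg (u : ℝ) : 0 ≤ rho u := Real.sqrt_nonneg _

theorem rho_le {u : ℝ} : rho u ≤ 1 := by
  have : 0 ≤ u ^ 4 := by positivity
  exact Real.sqrt_le_one.2 (by linarith)

/-- coefficients -/
def cu : Option (Option (Fin n)) → T n → ℝ
  | none => fun _ => 1
  | some none => fun t => t.1 ^ 2
  | some (some i) => fun t => rho t.1 * t.2 i

/-- linear maps -/
def Bu : Option (Option (Fin n)) → (V n × ℝ × V n) →L[ℝ] (V n × V n)
  | none => (ContinuousLinearMap.inl ℝ (V n) (V n)).comp (ContinuousLinearMap.fst ℝ (V n) (ℝ × V n))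
  | some none => (ContinuousLinearMap.inr ℝ (V n) (V n)).comp
      ((ContinuousLinearMap.snd ℝ ℝ (V n)).comp (ContinuousLinearMap.snd ℝ (V n) (ℝ × V n)))
  | some (some i) => ((ContinuousLinearMap.fst ℝ ℝ (V n)).comp
      (ContinuousLinearMap.snd ℝ (V n) (ℝ × V n))).smulRight (eq2 i)

/-- the argument -/
def pu (x : V n × ℝ × V n) (t : T n) : V n × V n :=
  (x.1, t.1 ^ 2 • x.2.2 + (x.2.1 * rho t.1) • t.2)

theorem aru (x : V n × ℝ × V n) (t : T n) : ar cu Bu x t = pu x t := by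
  rw [ar, Fintype.sum_option, Fintype.sum_option]
  have h : ∑ i : Fin n, cu (some (some i)) t • Bu (some (some i)) x =
      (0, (x.2.1 * rho t.1) • t.2) := by
    have h1 : ∀ i : Fin n, cu (some (some i)) t • Bu (some (some i)) x =
        (0, (x.2.1 * rho t.1) • (t.2 i • Pi.single i 1)) := by
      intro i
      simp only [cu, Bu, eq2, ContinuousLinearMap.smulRight_apply, ContinuousLinearMap.comp_apply,
        ContinuousLinearMap.coe_fst', ContinuousLinearMap.coe_snd', Prod.smul_mk, smul_zero,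
        smul_smul]
      congr 2
      ring
    rw [Finset.sum_congr rfl fun i _ => h1 i, sum_pair]
  rw [h]
  simp [cu, Bu, pu]

/-- `J w G (p, b, q) = ∫ w(u,z) G(p, u² q + b rho(u) z)` -/
def Ju (w : T n → ℝ) (G : V n × V n → ℝ) (x : V n × ℝ × V n) : ℝ :=
  ∫ t, w t * G (pu x t) ∂(nu n)

theorem Ju_eq (w : T n → ℝ) (G : V n × V n → ℝ) : Ju w G = Jg (nu n) cu Bu w G := by
  funext x
  simp only [Ju, Jg, aru]

theorem cu_ct (k : Option (Option (Fin n))) : Continuous (cu k) := by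
  match k with
  | none => exact continuous_const
  | some none => exact continuous_fst.pow 2
  | some (some i) => exact (rho_ct.comp continuous_fst).mul ((continuous_apply i).comp continuous_snd)

theorem cu_bd (k : Option (Option (Fin n))) (t : T n) (ht : t.1 ∈ Ioo (0 : ℝ) 1) :
    |cu k t| ≤ 1 + ‖t.2‖ := by
  match k with
  | none => simp [cu]
  | some none =>
    have h1 : t.1 ^ 2 ≤ 1 := pow_le_one₀ ht.1.le ht.2.le
    simp only [cu]
    rw [abs_of_nonneg (by positivity)]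
    linarith [norm_nonneg t.2]
  | some (some i) =>
    have := norm_le_pi_norm t.2 i
    rw [Real.norm_eq_abs] at this
    simp only [cu]
    rw [abs_mul, abs_of_nonneg (rho_nonneg _)]
    have h2 : rho t.1 * |t.2 i| ≤ 1 * ‖t.2‖ :=
      mul_le_mul rho_le this (abs_nonneg _) zero_le_one
    linarith

theorem Wt.cu {w : T n → ℝ} (h : Wt w) (k : Option (Option (Fin n))) :
    Wt (fun t => cu k t * w t) := h.mul (cu_ct k) (cu_bd k)

theorem Ju_fdd {w : T n → ℝ} (hw : Wt w) (hG : Tf K G) : Differentiable ℝ (Ju w G) := by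
  obtain ⟨C0, h0⟩ := hG.b0
  obtain ⟨C1, h1⟩ := hG.b1
  rw [Ju_eq]
  exact fun x => (Jg_fd cu_ct hw.ct (hG.cd.of_le (by simp)) h0 h1 hw.int
    (fun k => (hw.cu k).int) x).differentiableAt

theorem Ju_fd {w : T n → ℝ} (hw : Wt w) (hG : Tf K G) (x v : V n × ℝ × V n) :
    fderiv ℝ (Ju w G) x v = Ju w (fun y => fderiv ℝ G y (v.1, 0)) x +
      (Ju (fun t => t.1 ^ 2 * w t) (fun y => fderiv ℝ G y (0, v.2.2)) x +
      v.2.1 * ∑ i, Ju (fun t => rho t.1 * t.2 i * w t) (fun y => fderiv ℝ G y (eq2 i)) x) := by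
  obtain ⟨C0, h0⟩ := hG.b0
  obtain ⟨C1, h1⟩ := hG.b1
  rw [Ju_eq, Jg_fderiv cu_ct hw.ct (hG.cd.of_le (by simp)) h0 h1 hw.int
    (fun k => (hw.cu k).int) x, Fintype.sum_option, Fintype.sum_option, Finset.mul_sum]
  congr 1
  · rw [Ju_eq]
    simp [M.cu, Bu]
  · congr 1
    · rw [Ju_eq]
      simp [M.cu, Bu]
    · refine Finset.sum_congr rfl fun i _ => ?_
      rw [Ju_eq]
      simp only [Jg, M.cu, Bu, ContinuousLinearMap.smulRight_apply, ContinuousLinearMap.comp_apply,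
        map_smul, smul_eq_mul, ← integral_const_mul]
      refine integral_congr_ae (Filter.Eventually.of_forall fun z => ?_)
      simp only [ContinuousLinearMap.coe_snd', ContinuousLinearMap.coe_fst']
      ring

theorem Ju_bd {w : T n → ℝ} (hw : Wt w) (hG : Tf K G) : ∃ C, ∀ x, |Ju w G x| ≤ C := by
  obtain ⟨C0, h0⟩ := hG.b0
  exact ⟨_, fun x => by rw [Ju_eq]; exact Jg_bd h0 hw.int x⟩

theorem Ju_zero {w : T n → ℝ} (hG : Tf K G) {x : V n × ℝ × V n} (hx : x.1 ∉ K) :
    Ju w G x = 0 := by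
  rw [Ju]
  have : ∀ t, w t * G (pu x t) = 0 := fun t => by
    rw [hG.zero (x := pu x t) hx, mul_zero]
  simp [this]

end Vale.Agent.P088.R2.H676.M
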